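import Vale.Agent.P097.H289.Disc7
import Vale.Agent.P097.H109.Var

/-!
# P097, Bishop discs, part 8: the theorem

`bishop_unif`: for a compact `A ⊆ ℝ × ℝ` and `ε > 0` there is `K` such that for all small `c` the
points `e` of `A` outside a set of measure `K c²` carry a disc `p + i H` over the upper half plane,
with `Re H ≥ c * dist (foot, A)` on the real line, passing through `e`, and with difference
quotients at most `ε` at `e`.
-/

open MeasureTheory Filter Topology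
open scoped ENNReal ComplexConjugate NNReal

namespace Vale.Agent.P097.H289

noncomputable section

/-- the disc through `e` -/
structure BD (A : Set (ℝ × ℝ)) (e : ℝ × ℝ) (c ε p : ℝ) (H : ℂ → ℂ) : Prop where
  dc : DiffContOnCl ℂ H {z : ℂ | 0 < z.im}
  re0 : ∀ z : ℂ, 0 ≤ z.im → 0 ≤ (H z).re
  nb : ∀ z : ℂ, 0 ≤ z.im → ‖H z‖ ≤ 1
  bd : ∀ x : ℝ, |x - e.2| ≤ 1 →
    c * min (Metric.infDist ((p - (H x).im, x) : ℝ × ℝ) A) 1 ≤ (H x).re
  ft : p - (H e.2).im = e.1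
  z0 : (H e.2).re = 0
  ver : ∀ r : ℝ, 0 < r → r < 1 → ‖H (e.2 + r * Complex.I) - H e.2‖ ≤ ε * r
  hor : ∀ x : ℝ, |x - e.2| ≤ 1 → ‖H x - H e.2‖ ≤ ε * |x - e.2|

theorem BD.mono {A : Set (ℝ × ℝ)} {e : ℝ × ℝ} {c ε ε' p : ℝ} {H : ℂ → ℂ} (h : BD A e c ε p H)
    (hε : ε ≤ ε') : BD A e c ε' p H :=
  ⟨h.dc, h.re0, h.nb, h.bd, h.ft, h.z0, fun r h0 h1 => (h.ver r h0 h1).trans (by gcongr),
    fun x hx => (h.hor x hx).trans (by gcongr)⟩

/-- the localised set on the cylinder -/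
def loc (A : Set (ℝ × ℝ)) (τ : ℝ) : Set (ℝ × Ci) :=
  (fun z : ℝ × ℝ => ((z.1, (z.2 : Ci)) : ℝ × Ci)) '' (A ∩ {z | |z.2 - τ| ≤ 1 / 2})

/-- the truncated distance to the localised set -/
def Dl (A : Set (ℝ × ℝ)) (τ : ℝ) (x : ℝ) (ξ : Ci) : ℝ := min (Metric.infDist ((x, ξ) : ℝ × Ci) (loc A τ)) 1

theorem dat_Dl (A : Set (ℝ × ℝ)) (τ : ℝ) : Dat (Dl A τ) := by
  refine ⟨fun x ξ => le_min Metric.infDist_nonneg zero_le_one, fun x ξ => min_le_right _ _,
    fun x x' ξ ξ' => ?_⟩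
  unfold Dl
  have h1 := (Metric.lipschitz_infDist_pt (loc A τ)).dist_le_mul ((x, ξ) : ℝ × Ci) (x', ξ')
  rw [NNReal.coe_one, one_mul, Real.dist_eq, Prod.dist_eq, Real.dist_eq, dist_eq_norm] at h1
  have h2 := abs_min_sub_min_le_max (Metric.infDist ((x, ξ) : ℝ × Ci) (loc A τ)) 1
    (Metric.infDist ((x', ξ') : ℝ × Ci) (loc A τ)) 1
  have h3 : max |Metric.infDist ((x, ξ) : ℝ × Ci) (loc A τ) -
      Metric.infDist ((x', ξ') : ℝ × Ci) (loc A τ)| |(1 : ℝ) - 1| ≤ |x - x'| + ‖ξ - ξ'‖ := by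
    apply max_le
    · exact h1.trans (max_le (le_add_of_nonneg_right (norm_nonneg _))
        (le_add_of_nonneg_left (abs_nonneg _)))
    · rw [sub_self, abs_zero]
      positivity
  exact h2.trans h3

theorem norm_coe_sub {y y' : ℝ} (h : |y - y'| ≤ 2) : ‖((y : Ci) - (y' : Ci))‖ = |y - y'| := by
  rw [← AddCircle.coe_sub]
  exact (AddCircle.norm_coe_eq_abs_iff (4 : ℝ) (by norm_num)).2
    (by rw [abs_of_pos (by norm_num : (0 : ℝ) < 4)]; linarith)

theorem Dl_lower {A : Set (ℝ × ℝ)} {τ : ℝ} (hne : (loc A τ).Nonempty) {x y : ℝ}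
    (hy : |y - τ| ≤ 3 / 2) : min (Metric.infDist ((x, y) : ℝ × ℝ) A) 1 ≤ Dl A τ x (y : Ci) := by
  unfold Dl
  apply min_le_min _ le_rfl
  rw [Metric.le_infDist hne]
  rintro _ ⟨⟨x', y'⟩, ⟨hA, hy'⟩, rfl⟩
  refine (Metric.infDist_le_dist_of_mem hA).trans ?_
  have hy2 : |y' - τ| ≤ 1 / 2 := hy'
  have h1 : |y - y'| ≤ 2 := by
    have : y - y' = (y - τ) - (y' - τ) := by ring
    rw [this]
    have := abs_sub (y - τ) (y' - τ)
    linarith
  rw [Prod.dist_eq, Prod.dist_eq, dist_eq_norm (y : Ci), norm_coe_sub h1, Real.dist_eq y y']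

theorem Dl_zero {A : Set (ℝ × ℝ)} {τ : ℝ} {e : ℝ × ℝ} (he : e ∈ A) (h : |e.2 - τ| ≤ 1 / 2) :
    Dl A τ e.1 (e.2 : Ci) = 0 := by
  unfold Dl
  rw [Metric.infDist_zero_of_mem (show ((e.1, (e.2 : Ci)) : ℝ × Ci) ∈ loc A τ from ⟨e, ⟨he, h⟩, rfl⟩)]
  simp

theorem sqrt_ofReal {y : ℝ} (hy : 0 ≤ y) : (ENNReal.ofReal (y ^ 2)) ^ (1 / 2 : ℝ) = ENNReal.ofReal y := by
  rw [ENNReal.ofReal_rpow_of_nonneg (by positivity) (by norm_num), ← Real.sqrt_eq_rpow,
    Real.sqrt_sq hy]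

/-- the constant -/
def K1 (M ε : ℝ) : ℝ := (2 * M + 4) * K0 / ε ^ 2 + 8 * ((2 * M + 4) * √K0 / ε)

theorem K1_nonneg {M ε : ℝ} (hM : 0 ≤ M) (hε : 0 < ε) : 0 ≤ K1 M ε := by
  unfold K1
  have := K0_pos
  positivity

theorem bishop_loc {A : Set (ℝ × ℝ)} {M : ℝ} (hM : 0 ≤ M) (hA : ∀ e ∈ A, |e.1| ≤ M) {ε : ℝ}
    (hε : 0 < ε) {c : ℝ} (hc : 0 < c) (hc1 : c ≤ 1 / 8) (τ : ℝ) :
    ∃ Bad : Set (ℝ × ℝ), MeasurableSet Bad ∧ volume Bad ≤ ENNReal.ofReal (K1 M ε * c ^ 2) ∧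
      ∀ e ∈ A, |e.2 - τ| ≤ 1 / 2 → e ∉ Bad → ∃ p H, BD A e c ε p H := by
  obtain ⟨Ac, F⟩ := exists_fam (dat_Dl A τ) hc (by linarith)
  have hnorm : ∀ (p : ℝ) (z : ℂ), 0 ≤ z.im → ‖Hf (Ac p) z‖ ≤ 1 := by
    intro p z hz
    have h1 := norm_Hf_le (by positivity : 0 ≤ 3 * c) (F.sq p) hz
    have h2 := F.a0 p
    have h3 : √2 ≤ 3 / 2 := by
      rw [Real.sqrt_le_left (by norm_num)]
      norm_num
    nlinarith
  set G : ℝ → ℝ → ℝ := fun p x => (Hf (Ac p) (x : ℂ)).im with hG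
  have hGc : Continuous fun z : ℝ × ℝ => G z.1 z.2 := by
    have : Continuous (fun z : ℝ × ℝ => Hf (Ac z.1) (z.2 : ℂ)) :=
      cont_at F hc.le continuous_fst (by fun_prop) (fun z => by simp)
    exact Complex.continuous_im.comp this
  set Φ : ℝ × ℝ → ℝ × ℝ := fun z => (z.1 - G z.1 z.2, z.2) with hΦ
  have hΦc : Continuous Φ := by
    rw [hΦ]
    exact (continuous_fst.sub hGc).prodMk continuous_snd
  set u : ℝ := -(M + 2) with hu
  set v : ℝ := M + 2 with hv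
  set box : Set (ℝ × ℝ) := Nb Ac ε ∩ Set.Ioo u v ×ˢ Set.Icc (τ - 1 / 2) (τ + 1 / 2) with hbox
  set Bad : Set (ℝ × ℝ) := toMeasurable volume (Φ '' box) with hBad
  refine ⟨Bad, measurableSet_toMeasurable _ _, ?_, ?_⟩
  · rw [hBad, measure_toMeasurable]
    have hsub : Set.Icc (τ - 1 / 2) (τ + 1 / 2) ⊆ Set.Ioc (τ - 2) (τ - 2 + 4) := by
      intro x hx
      exact ⟨by linarith [hx.1], by linarith [hx.2]⟩
    have hL : ∀ p q : ℝ, ∫⁻ ξ in Set.Icc (τ - 1 / 2) (τ + 1 / 2), ENNReal.ofReal ((G p ξ - G q ξ) ^ 2) ≤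
        ENNReal.ofReal ((8 * c) ^ 2 * (p - q) ^ 2) := fun p q =>
      (lintegral_mono_set hsub).trans (F.l2 p q (τ - 2))
    have h1 := H109.Var.var_image2 hGc (x0 := τ - 1 / 2) (x1 := τ + 1 / 2) (a := u) (b := v)
      (K := 8 * c) (by rw [hu, hv]; linarith) (by positivity) hL (isOpen_Nb F hc.le ε)
    have h2 : volume box ≤ ENNReal.ofReal ((2 * M + 4) * (K0 * (c / ε) ^ 2)) := by
      refine (measure_mono (Set.inter_subset_inter_right _ (Set.prod_mono le_rfl hsub))).trans ?_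
      refine (box_le F hc.le hε u v (τ - 2)).trans ?_
      rw [← ENNReal.ofReal_mul (by rw [hu, hv]; linarith)]
      apply ENNReal.ofReal_le_ofReal
      rw [hu, hv]
      apply le_of_eq
      ring
    refine h1.trans ?_
    have hK := K0_pos
    have hvu : v - u = 2 * M + 4 := by rw [hu, hv]; ring
    have h3 : ENNReal.ofReal (8 * c) * (ENNReal.ofReal (v - u) * volume box) ^ (1 / 2 : ℝ) ≤
        ENNReal.ofReal (8 * c * ((2 * M + 4) * √K0 * c / ε)) := by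
      rw [ENNReal.ofReal_mul (by positivity : 0 ≤ 8 * c)]
      gcongr
      rw [← sqrt_ofReal (y := (2 * M + 4) * √K0 * c / ε) (by positivity)]
      apply ENNReal.rpow_le_rpow _ (by norm_num)
      rw [hvu]
      calc ENNReal.ofReal (2 * M + 4) * volume box ≤
          ENNReal.ofReal (2 * M + 4) * ENNReal.ofReal ((2 * M + 4) * (K0 * (c / ε) ^ 2)) := by gcongr
        _ = ENNReal.ofReal (((2 * M + 4) * √K0 * c / ε) ^ 2) := by
          rw [← ENNReal.ofReal_mul (by positivity)]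
          congr 1
          rw [show ((2 * M + 4) * √K0 * c / ε) ^ 2 = (2 * M + 4) ^ 2 * (√K0 ^ 2) * c ^ 2 / ε ^ 2 by ring,
            Real.sq_sqrt hK.le]
          ring
    calc volume box + ENNReal.ofReal (8 * c) * (ENNReal.ofReal (v - u) * volume box) ^ (1 / 2 : ℝ) ≤
        ENNReal.ofReal ((2 * M + 4) * (K0 * (c / ε) ^ 2)) +
          ENNReal.ofReal (8 * c * ((2 * M + 4) * √K0 * c / ε)) := add_le_add h2 h3
      _ = ENNReal.ofReal (K1 M ε * c ^ 2) := by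
        rw [← ENNReal.ofReal_add (by positivity) (by positivity)]
        congr 1
        unfold K1
        field_simp
  · intro e he heτ heB
    have hne : (loc A τ).Nonempty := ⟨_, ⟨e, ⟨he, heτ⟩, rfl⟩⟩
    have heM := hA e he
    rw [abs_le] at heM
    -- the parameter
    obtain ⟨p, hp, hpe⟩ : ∃ p ∈ Set.Icc (-(M + 1)) (M + 1), p - G p e.2 = e.1 := by
      have hcont : ContinuousOn (fun p : ℝ => p - G p e.2) (Set.Icc (-(M + 1)) (M + 1)) := by
        have : Continuous (fun p : ℝ => G p e.2) := hGc.comp (continuous_id.prodMk continuous_const)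
        exact (continuous_id.sub this).continuousOn
      have hb : ∀ p, |G p e.2| ≤ 1 := fun p =>
        (Complex.abs_im_le_norm _).trans (hnorm p _ (by simp))
      have h1 := intermediate_value_Icc (by linarith : -(M + 1) ≤ M + 1) hcont
      have h2 := hb (-(M + 1))
      have h3 := hb (M + 1)
      rw [abs_le] at h2 h3
      obtain ⟨p, hp1, hp2⟩ := h1 (show e.1 ∈ Set.Icc (-(M + 1) - G (-(M + 1)) e.2)
        (M + 1 - G (M + 1) e.2) from ⟨by linarith [h2.1], by linarith [h3.2]⟩)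
      exact ⟨p, hp1, hp2⟩
    have hnb : (p, e.2) ∉ Nb Ac ε := by
      intro h
      apply heB
      apply subset_toMeasurable
      refine ⟨(p, e.2), ⟨h, ⟨by rw [hu]; linarith [hp.1], by rw [hv]; linarith [hp.2]⟩, ?_⟩, ?_⟩
      · rw [abs_le] at heτ
        exact ⟨by linarith [heτ.1], by linarith [heτ.2]⟩
      · rw [hΦ]
        exact Prod.ext hpe rfl
    have hcl : closure {z : ℂ | 0 < z.im} = {z : ℂ | 0 ≤ z.im} := Complex.closure_setOfPred_lt_im 0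
    have hB3 : 0 ≤ 3 * c := by positivity
    have hpos : ∀ x : ℝ, 0 ≤ (Hf (Ac p) x).re := by
      intro x
      rw [F.eq p x]
      exact mul_nonneg hc.le ((dat_Dl A τ).nonneg _ _)
    refine ⟨p, Hf (Ac p), ⟨?_, ?_⟩, fun z hz => re_nonneg hB3 (F.sq p) hpos hz,
      fun z hz => hnorm p z hz, fun x hx => ?_, hpe, ?_, fun r h0 h1 => ?_, fun x hx => ?_⟩
    · intro z hz
      exact (Hf_hasDerivAt hB3 (F.sq p) hz).differentiableAt.differentiableWithinAt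
    · rw [hcl]
      exact Hf_continuousOn' hB3 (F.sq p)
    · rw [F.eq p x]
      apply mul_le_mul_of_nonneg_left _ hc.le
      apply Dl_lower hne
      have : x - τ = (x - e.2) + (e.2 - τ) := by ring
      rw [this]
      have := abs_add_le (x - e.2) (e.2 - τ)
      linarith
    · have h1 := F.eq p e.2
      have h2 : p - (Hf (Ac p) (e.2 : ℂ)).im = e.1 := hpe
      rw [h2, Dl_zero he heτ, mul_zero] at h1
      exact h1
    · by_contra hcon
      exact hnb (Or.inl ⟨r, h0, h1, not_le.1 hcon⟩)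
    · by_contra hcon
      exact hnb (Or.inr ⟨x, by show |x - e.2| < 2; linarith, not_le.1 hcon⟩)

/-- **Bishop discs, uniform form** -/
theorem bishop_unif {A : Set (ℝ × ℝ)} (hA : IsCompact A) {ε : ℝ} (hε : 0 < ε) :
    ∃ K : ℝ, 0 ≤ K ∧ ∀ c : ℝ, 0 < c → c ≤ 1 / 8 → ∃ Bad : Set (ℝ × ℝ), MeasurableSet Bad ∧
      volume Bad ≤ ENNReal.ofReal (K * c ^ 2) ∧ ∀ e ∈ A, e ∉ Bad → ∃ p H, BD A e c ε p H := by
  obtain ⟨M, hM⟩ := hA.isBounded.exists_norm_le
  set M' : ℝ := max M 0 with hM'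
  have hM0 : 0 ≤ M' := le_max_right _ _
  have h1 : ∀ e ∈ A, |e.1| ≤ M' := fun e he =>
    ((norm_fst_le e).trans (hM e he)).trans (le_max_left _ _)
  have h2 : ∀ e ∈ A, |e.2| ≤ M' := fun e he =>
    ((norm_snd_le e).trans (hM e he)).trans (le_max_left _ _)
  set T : Finset ℤ := Finset.Icc (-(⌈M'⌉ + 1)) (⌈M'⌉ + 1) with hT
  refine ⟨T.card * K1 M' ε, mul_nonneg (Nat.cast_nonneg _) (K1_nonneg hM0 hε), fun c hc hc1 => ?_⟩
  choose Bad hB1 hB2 hB3 using fun τ : ℤ => bishop_loc hM0 h1 hε hc hc1 (τ : ℝ)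
  refine ⟨⋃ τ ∈ T, Bad τ, Finset.measurableSet_biUnion _ fun τ _ => hB1 τ, ?_, fun e he hnb => ?_⟩
  · refine (measure_biUnion_finset_le _ _).trans ?_
    refine (Finset.sum_le_sum fun τ _ => hB2 τ).trans ?_
    rw [Finset.sum_const, nsmul_eq_mul, mul_assoc, ENNReal.ofReal_mul (Nat.cast_nonneg _),
      ENNReal.ofReal_natCast]
  · have h3 : |e.2 - round e.2| ≤ 1 / 2 := abs_sub_round e.2
    have h4 : round e.2 ∈ T := by
      rw [hT, Finset.mem_Icc]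
      have h5 := h2 e he
      rw [abs_le] at h3 h5
      have h6 : M' ≤ ⌈M'⌉ := Int.le_ceil _
      constructor
      · have : (-((⌈M'⌉ : ℝ) + 1)) ≤ (round e.2 : ℝ) := by linarith [h3.2, h5.1]
        exact_mod_cast this
      · have : (round e.2 : ℝ) ≤ (⌈M'⌉ : ℝ) + 1 := by linarith [h3.1, h5.2]
        exact_mod_cast this
    refine hB3 (round e.2) e he h3 fun h => hnb ?_
    exact Set.mem_biUnion h4 h

/-- **Bishop discs, Egorov form** -/
theorem bishop_eg {A : Set (ℝ × ℝ)} (hA : IsCompact A) {ε : ℝ} (hε : 0 < ε) {η : ℝ} (hη : 0 < η)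
    {c₁ : ℝ} (hc₁ : 0 < c₁) : ∃ c : ℝ, 0 < c ∧ c ≤ c₁ ∧ ∃ A' : Set (ℝ × ℝ), A' ⊆ A ∧
      MeasurableSet A' ∧ volume (A \ A') ≤ ENNReal.ofReal η ∧ ∀ e ∈ A', ∃ p H, BD A e c ε p H := by
  obtain ⟨K, hK0, hK⟩ := bishop_unif hA hε
  set c : ℝ := min (min c₁ (1 / 8)) (√(η / (K + 1))) with hc
  have hc0 : 0 < c := by
    rw [hc]
    have : 0 < √(η / (K + 1)) := Real.sqrt_pos.2 (by positivity)
    exact lt_min (lt_min hc₁ (by norm_num)) this
  obtain ⟨Bad, hB1, hB2, hB3⟩ := hK c hc0 ((min_le_left _ _).trans (min_le_right _ _))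
  refine ⟨c, hc0, (min_le_left _ _).trans (min_le_left _ _), A \ Bad, Set.sdiff_subset,
    hA.measurableSet.diff hB1, ?_, fun e he => hB3 e he.1 he.2⟩
  have h1 : A \ (A \ Bad) ⊆ Bad := by
    rintro x ⟨hx1, hx2⟩
    by_contra h
    exact hx2 ⟨hx1, h⟩
  refine (measure_mono h1).trans (hB2.trans ?_)
  apply ENNReal.ofReal_le_ofReal
  have h2 : c ^ 2 ≤ η / (K + 1) := by
    have h3 : c ≤ √(η / (K + 1)) := min_le_right _ _
    calc c ^ 2 ≤ √(η / (K + 1)) ^ 2 := by gcongr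
      _ = η / (K + 1) := Real.sq_sqrt (by positivity)
  calc K * c ^ 2 ≤ K * (η / (K + 1)) := by gcongr
    _ ≤ η := by
      rw [mul_div_assoc', div_le_iff₀ (by positivity)]
      nlinarith

/-- **Bishop discs, almost everywhere form, for all small `c = 2^(-k)`** -/
theorem bishop_ae {A : Set (ℝ × ℝ)} (hA : IsCompact A) :
    ∀ᵐ e : ℝ × ℝ, e ∈ A → ∀ ε : ℝ, 0 < ε → ∀ᶠ k : ℕ in atTop, ∃ p H, BD A e ((1 / 2) ^ k) ε p H := by
  have h1 : ∀ n : ℕ, ∀ᵐ e : ℝ × ℝ, e ∈ A → ∀ᶠ k : ℕ in atTop,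
      ∃ p H, BD A e ((1 / 2) ^ k) (1 / ((n : ℝ) + 1)) p H := by
    intro n
    obtain ⟨K, hK0, hK⟩ := bishop_unif hA (ε := 1 / ((n : ℝ) + 1)) (by positivity)
    have hsmall : ∀ k : ℕ, ((1 / 2 : ℝ)) ^ (k + 3) ≤ 1 / 8 := by
      intro k
      rw [pow_add]
      have : (1 / 2 : ℝ) ^ k ≤ 1 := pow_le_one₀ (by norm_num) (by norm_num)
      norm_num
      linarith
    choose Bad hB1 hB2 hB3 using fun k : ℕ => hK ((1 / 2) ^ (k + 3)) (by positivity) (hsmall k)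
    have hsum : ∑' k, volume (Bad k) ≠ ∞ := by
      refine ne_top_of_le_ne_top ?_ (ENNReal.tsum_le_tsum hB2)
      have hs : Summable (fun k : ℕ => K * ((1 / 2 : ℝ) ^ (k + 3)) ^ 2) := by
        have : (fun k : ℕ => K * ((1 / 2 : ℝ) ^ (k + 3)) ^ 2) = fun k : ℕ => (K / 64) * (1 / 4 : ℝ) ^ k := by
          ext k
          rw [← pow_mul, show (k + 3) * 2 = 2 * k + 6 by ring, pow_add, pow_mul]
          norm_num
          ring
        rw [this]
        exact (summable_geometric_of_lt_one (by norm_num) (by norm_num)).mul_left _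
      rw [← ENNReal.ofReal_tsum_of_nonneg (fun k => by positivity) hs]
      exact ENNReal.ofReal_ne_top
    filter_upwards [ae_eventually_notMem hsum] with e he heA
    obtain ⟨k0, hk0⟩ := eventually_atTop.1 he
    refine eventually_atTop.2 ⟨k0 + 3, fun k hk => ?_⟩
    obtain ⟨j, rfl⟩ := Nat.exists_eq_add_of_le (by omega : 3 ≤ k)
    rw [add_comm 3 j]
    exact hB3 j e heA (hk0 j (by omega))
  filter_upwards [ae_all_iff.2 h1] with e he heA ε hε
  obtain ⟨n, hn⟩ := exists_nat_one_div_lt hε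
  filter_upwards [he n heA] with k hk
  obtain ⟨p, H, hH⟩ := hk
  exact ⟨p, H, hH.mono hn.le⟩

end

end Vale.Agent.P097.H289
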