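import Mathlib

/-!
# P097, Bishop discs, part 1: the conjugate operator on the circle

The circle is `AddCircle 4` with its probability Haar measure.  `Pp` is the projection on the
positive frequencies; for a real function `b` the boundary values of the holomorphic extension
are `hd b = b^(0) + 2 Pp b`, whose real part is `b` and whose imaginary part is the conjugate
function.  Also: translations.
-/

open MeasureTheory Filter Topology
open scoped ENNReal ComplexConjugate

namespace Vale.Agent.P097.H289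

noncomputable section

instance fact4 : Fact ((0 : ℝ) < 4) := ⟨by norm_num⟩

/-- the circle -/
abbrev Ci : Type := AddCircle (4 : ℝ)

/-- probability measure on the circle -/
abbrev hm : Measure Ci := AddCircle.haarAddCircle

/-- complex square integrable functions -/
abbrev EE : Type := Lp ℂ 2 hm

/-- real square integrable functions -/
abbrev FF : Type := Lp ℝ 2 hm

/-- closed span of the positive frequencies -/
def Kp : Submodule ℂ EE :=
  (Submodule.span ℂ (Set.range fun n : {n : ℤ // 0 < n} =>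
    (fourierLp (T := (4 : ℝ)) 2 n.1 : EE))).topologicalClosure

instance completeKp : CompleteSpace Kp :=
  (Submodule.isClosed_topologicalClosure _).completeSpace_coe

/-- projection on the positive frequencies -/
def Pp : EE →L[ℂ] EE := Kp.starProjection

theorem norm_Pp_le (f : EE) : ‖Pp f‖ ≤ ‖f‖ := by
  have h := (Kp.starProjection).le_opNorm f
  have h2 : ‖Kp.starProjection‖ ≤ 1 := Submodule.starProjection_norm_le _
  calc ‖Pp f‖ = ‖Kp.starProjection f‖ := rfl
    _ ≤ ‖Kp.starProjection‖ * ‖f‖ := h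
    _ ≤ 1 * ‖f‖ := by gcongr
    _ = ‖f‖ := one_mul _

theorem inner_fourier (f : EE) (n : ℤ) :
    inner ℂ (fourierLp (T := (4 : ℝ)) 2 n : EE) f = fourierCoeff (f : Ci → ℂ) n := by
  have h := fourierBasis_repr (T := (4 : ℝ)) f n
  rw [HilbertBasis.repr_apply_apply, coe_fourierBasis] at h
  exact h

theorem fourier_mem_Kp {n : ℤ} (hn : 0 < n) : (fourierLp (T := (4 : ℝ)) 2 n : EE) ∈ Kp :=
  Submodule.le_topologicalClosure _ (Submodule.subset_span ⟨⟨n, hn⟩, rfl⟩)

theorem fourier_orth {n : ℤ} (hn : n ≤ 0) : (fourierLp (T := (4 : ℝ)) 2 n : EE) ∈ Kpᗮ := by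
  unfold Kp
  rw [Submodule.orthogonal_closure]
  rw [Submodule.mem_orthogonal]
  intro u hu
  induction hu using Submodule.span_induction with
  | mem x hx =>
    obtain ⟨m, rfl⟩ := hx
    have := (orthonormal_fourier (T := (4 : ℝ))).2 (i := m.1) (j := n) (by have := m.2; omega)
    exact this
  | zero => simp
  | add x y _ _ hx hy => rw [inner_add_left, hx, hy, add_zero]
  | smul a x _ hx => rw [inner_smul_left, hx, mul_zero]

theorem coeff_Pp (f : EE) (n : ℤ) :
    fourierCoeff (Pp f : Ci → ℂ) n = if 0 < n then fourierCoeff (f : Ci → ℂ) n else 0 := by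
  rw [← inner_fourier, ← inner_fourier]
  have hs : inner ℂ (fourierLp (T := (4 : ℝ)) 2 n : EE) (Pp f) =
      inner ℂ (Pp (fourierLp (T := (4 : ℝ)) 2 n : EE)) f :=
    (Submodule.starProjection_isSymmetric (K := Kp) _ _).symm
  rw [hs]
  by_cases hn : 0 < n
  · rw [if_pos hn]
    have : Pp (fourierLp (T := (4 : ℝ)) 2 n : EE) = fourierLp (T := (4 : ℝ)) 2 n :=
      Submodule.starProjection_eq_self_iff.2 (fourier_mem_Kp hn)
    rw [this]
  · rw [if_neg hn]
    have : Pp (fourierLp (T := (4 : ℝ)) 2 n : EE) = 0 :=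
      (Submodule.starProjection_apply_eq_zero_iff _).2 (fourier_orth (not_lt.1 hn))
    rw [this, inner_zero_left]

theorem ext_coeff {f g : EE} (h : ∀ n : ℤ, fourierCoeff (f : Ci → ℂ) n =
    fourierCoeff (g : Ci → ℂ) n) : f = g := by
  apply (fourierBasis (T := (4 : ℝ))).repr.injective
  ext n
  rw [fourierBasis_repr, fourierBasis_repr, h n]

theorem integrable_EE (f : EE) : Integrable (f : Ci → ℂ) hm :=
  (Lp.memLp f).integrable (by norm_num)

theorem norm_coeff_le (f : EE) (n : ℤ) : ‖fourierCoeff (f : Ci → ℂ) n‖ ≤ ‖f‖ := by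
  rw [← inner_fourier]
  calc ‖inner ℂ (fourierLp (T := (4 : ℝ)) 2 n : EE) f‖
      ≤ ‖(fourierLp (T := (4 : ℝ)) 2 n : EE)‖ * ‖f‖ := norm_inner_le_norm _ _
    _ = ‖f‖ := by rw [(orthonormal_fourier (T := (4 : ℝ))).1 n, one_mul]

/-- the inclusion of the real functions in the complex ones -/
def cx (b : FF) : EE := ((Lp.memLp b).ofReal (K := ℂ)).toLp (fun x => ((b x : ℝ) : ℂ))

theorem coe_cx (b : FF) : (cx b : Ci → ℂ) =ᵐ[hm] fun x => ((b x : ℝ) : ℂ) :=
  MemLp.coeFn_toLp _

theorem cx_sub (b b' : FF) : cx (b - b') = cx b - cx b' := by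
  apply Lp.ext
  filter_upwards [coe_cx (b - b'), coe_cx b, coe_cx b', Lp.coeFn_sub b b',
    Lp.coeFn_sub (cx b) (cx b')] with x h1 h2 h3 h4 h5
  rw [h1, h5, Pi.sub_apply, h2, h3, h4, Pi.sub_apply]
  push_cast
  ring

theorem norm_cx (b : FF) : ‖cx b‖ = ‖b‖ := by
  apply le_antisymm
  · apply Lp.norm_le_norm_of_ae_le
    filter_upwards [coe_cx b] with x hx
    rw [hx]
    simp
  · apply Lp.norm_le_norm_of_ae_le
    filter_upwards [coe_cx b] with x hx
    rw [hx]
    simp

theorem coeff_conj (f : Ci → ℂ) (n : ℤ) :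
    fourierCoeff (fun x => conj (f x)) n = conj (fourierCoeff f (-n)) := by
  unfold fourierCoeff
  rw [← integral_conj]
  congr 1
  ext x
  simp only [smul_eq_mul, map_mul, neg_neg]
  rw [fourier_neg]

theorem coeff_cx_neg (b : FF) (n : ℤ) :
    fourierCoeff (cx b : Ci → ℂ) (-n) = conj (fourierCoeff (cx b : Ci → ℂ) n) := by
  have h1 : fourierCoeff (cx b : Ci → ℂ) (-n) = fourierCoeff (fun x => conj (cx b x)) (-n) := by
    apply congrFun (fourierCoeff_congr_ae ?_)
    filter_upwards [coe_cx b] with x hx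
    rw [hx]
    exact (Complex.conj_ofReal _).symm
  rw [h1, coeff_conj, neg_neg]

/-- the constant function in `EE` -/
def one' : EE := fourierLp (T := (4 : ℝ)) 2 0

theorem coe_one' : (one' : Ci → ℂ) =ᵐ[hm] fun _ => 1 := by
  have := coeFn_fourierLp (T := (4 : ℝ)) 2 0
  filter_upwards [this] with x hx
  unfold one'
  rw [hx, fourier_zero]

theorem coeff_one' (n : ℤ) : fourierCoeff (one' : Ci → ℂ) n = if n = 0 then 1 else 0 := by
  rw [← inner_fourier]
  unfold one'
  have h := orthonormal_iff_ite.1 (orthonormal_fourier (T := (4 : ℝ))) n 0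
  rw [h]

/-- boundary values of the holomorphic extension of the real function `b` -/
def hd (b : FF) : EE := (fourierCoeff (cx b : Ci → ℂ) 0) • one' + (2 : ℂ) • Pp (cx b)

theorem coeff_add (f g : EE) (n : ℤ) : fourierCoeff ((f + g : EE) : Ci → ℂ) n =
    fourierCoeff (f : Ci → ℂ) n + fourierCoeff (g : Ci → ℂ) n := by
  rw [← inner_fourier, ← inner_fourier, ← inner_fourier, inner_add_right]

theorem coeff_smul (a : ℂ) (f : EE) (n : ℤ) : fourierCoeff ((a • f : EE) : Ci → ℂ) n =
    a * fourierCoeff (f : Ci → ℂ) n := by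
  rw [← inner_fourier, ← inner_fourier, inner_smul_right]

theorem coeff_hd (b : FF) (n : ℤ) : fourierCoeff (hd b : Ci → ℂ) n =
    if n = 0 then fourierCoeff (cx b : Ci → ℂ) 0
    else if 0 < n then 2 * fourierCoeff (cx b : Ci → ℂ) n else 0 := by
  unfold hd
  rw [coeff_add, coeff_smul, coeff_smul, coeff_one', coeff_Pp]
  rcases lt_trichotomy n 0 with h | h | h
  · rw [if_neg h.ne, if_neg (by omega), if_neg h.ne, if_neg (by omega)]; ring
  · subst h; simp
  · rw [if_neg h.ne', if_pos h, if_neg h.ne', if_pos h]; ring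

/-- complex conjugation -/
def cj (f : EE) : EE := ((Lp.memLp f).star).toLp (fun x => conj (f x))

theorem coe_cj (f : EE) : (cj f : Ci → ℂ) =ᵐ[hm] fun x => conj (f x) := MemLp.coeFn_toLp _

theorem coeff_cj (f : EE) (n : ℤ) :
    fourierCoeff (cj f : Ci → ℂ) n = conj (fourierCoeff (f : Ci → ℂ) (-n)) := by
  rw [congrFun (fourierCoeff_congr_ae (coe_cj f)) n, coeff_conj]

theorem hd_add_cj (b : FF) : hd b + cj (hd b) = (2 : ℂ) • cx b := by
  apply ext_coeff
  intro n
  rw [coeff_add, coeff_smul, coeff_cj, coeff_hd, coeff_hd]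
  rcases lt_trichotomy n 0 with h | h | h
  · rw [if_neg h.ne, if_neg (by omega), if_neg (by omega), if_pos (by omega), coeff_cx_neg,
      map_mul, Complex.conj_conj, show (starRingEnd ℂ) (2 : ℂ) = 2 from Complex.conj_ofNat 2]
    simp
  · subst h
    have := coeff_cx_neg b 0
    simp only [neg_zero] at this
    simp only [neg_zero, if_true]
    rw [← this]
    ring
  · rw [if_neg h.ne', if_pos h, if_neg (by omega), if_neg (by omega)]
    simp

/-- the real part of the boundary values is the given function -/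
theorem re_hd (b : FF) : ∀ᵐ x ∂hm, ((hd b : Ci → ℂ) x).re = b x := by
  have h := hd_add_cj b
  filter_upwards [coe_cj (hd b), coe_cx b, Lp.coeFn_add (hd b) (cj (hd b)),
    Lp.coeFn_smul (2 : ℂ) (cx b)] with x h1 h2 h3 h4
  rw [h] at h3
  rw [h4] at h3
  simp only [Pi.smul_apply, Pi.add_apply, smul_eq_mul] at h3
  rw [h1, h2] at h3
  have := congrArg Complex.re h3
  simp at this
  linarith

/-- the conjugate function of `b` -/
def tj (b : FF) (x : Ci) : ℝ := (((2 : ℂ) • Pp (cx b) : EE) x).im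

theorem im_hd (b : FF) : ∀ᵐ x ∂hm, ((hd b : Ci → ℂ) x).im = tj b x := by
  have him : (fourierCoeff (cx b : Ci → ℂ) 0).im = 0 := by
    have := coeff_cx_neg b 0
    rw [neg_zero] at this
    have h2 := congrArg Complex.im this
    simp at h2
    linarith
  unfold hd tj
  filter_upwards [Lp.coeFn_add ((fourierCoeff (cx b : Ci → ℂ) 0) • one')
    ((2 : ℂ) • Pp (cx b)), Lp.coeFn_smul (fourierCoeff (cx b : Ci → ℂ) 0) one', coe_one']
    with x h1 h2 h3
  rw [h1, Pi.add_apply, h2, Pi.smul_apply, h3]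
  simp [him]

/-! ## translations -/

theorem mp_add (h : Ci) : MeasurePreserving (fun x : Ci => x + h) hm hm :=
  measurePreserving_add_right _ h

/-- translation on complex functions -/
def sh (h : Ci) (f : EE) : EE := Lp.compMeasurePreserving (fun x : Ci => x + h) (mp_add h) f

theorem coe_sh (h : Ci) (f : EE) : (sh h f : Ci → ℂ) =ᵐ[hm] fun x => f (x + h) :=
  Lp.coeFn_compMeasurePreserving f (mp_add h)

/-- translation on real functions -/
def shr (h : Ci) (f : FF) : FF := Lp.compMeasurePreserving (fun x : Ci => x + h) (mp_add h) f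

theorem coe_shr (h : Ci) (f : FF) : (shr h f : Ci → ℝ) =ᵐ[hm] fun x => f (x + h) :=
  Lp.coeFn_compMeasurePreserving f (mp_add h)

theorem coeff_sh (h : Ci) (f : EE) (n : ℤ) : fourierCoeff (sh h f : Ci → ℂ) n =
    fourier n h * fourierCoeff (f : Ci → ℂ) n := by
  rw [congrFun (fourierCoeff_congr_ae (coe_sh h f)) n]
  unfold fourierCoeff
  have h1 : ∀ x : Ci, (fourier (-n) x : ℂ) • (f : Ci → ℂ) (x + h) =
      (fun y : Ci => (fourier n h : ℂ) * ((fourier (-n) y : ℂ) • (f : Ci → ℂ) y)) (x + h) := by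
    intro x
    simp only [smul_eq_mul]
    have h2 : (fourier (-n) (x + h) : ℂ) = fourier (-n) x * fourier (-n) h := by
      rw [fourier_apply, fourier_apply, fourier_apply, smul_add, AddCircle.toCircle_add]
      push_cast
      ring
    have h3 : (fourier n h : ℂ) * fourier (-n) h = 1 := by
      rw [← fourier_add]
      simp
    rw [h2]
    linear_combination (-(fourier (-n) x : ℂ) * (f : Ci → ℂ) (x + h)) * h3
  simp only [h1]
  rw [integral_add_right_eq_self (μ := hm)
    (fun y : Ci => (fourier n h : ℂ) * ((fourier (-n) y : ℂ) • (f : Ci → ℂ) y)) h]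
  rw [integral_const_mul]

theorem sh_Pp (h : Ci) (f : EE) : Pp (sh h f) = sh h (Pp f) := by
  apply ext_coeff
  intro n
  rw [coeff_Pp, coeff_sh, coeff_sh, coeff_Pp]
  split_ifs <;> simp

theorem tt_add (h : Ci) : Tendsto (fun x : Ci => x + h) (ae hm) (ae hm) :=
  (mp_add h).quasiMeasurePreserving.tendsto_ae

theorem ae_shift {p : Ci → Prop} (h : Ci) (hfg : ∀ᵐ x ∂hm, p x) : ∀ᵐ x ∂hm, p (x + h) :=
  (tt_add h).eventually hfg

theorem cx_shr (h : Ci) (b : FF) : cx (shr h b) = sh h (cx b) := by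
  apply Lp.ext
  have h0 := ae_shift (p := fun x => (cx b : Ci → ℂ) x = ((b x : ℝ) : ℂ)) h (coe_cx b)
  filter_upwards [coe_cx (shr h b), coe_shr h b, coe_sh h (cx b), h0] with x h1 h2 h3 h4
  rw [h1, h2, h3, h4]

theorem tj_shr (h : Ci) (b : FF) : ∀ᵐ x ∂hm, tj (shr h b) x = tj b (x + h) := by
  unfold tj
  rw [cx_shr, sh_Pp]
  have h1 := Lp.coeFn_smul (2 : ℂ) (sh h (Pp (cx b)))
  have h2 := coe_sh h (Pp (cx b))
  have h3 := ae_shift (p := fun x => (((2 : ℂ) • Pp (cx b) : EE) : Ci → ℂ) x =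
    ((2 : ℂ) • (Pp (cx b) : Ci → ℂ)) x) h (Lp.coeFn_smul (2 : ℂ) (Pp (cx b)))
  filter_upwards [h1, h2, h3] with x h1 h2 h3
  rw [h1, h3, Pi.smul_apply, Pi.smul_apply, h2]

theorem norm_sh_sub (h : Ci) (b b' : FF) : ‖shr h b - shr h b'‖ = ‖b - b'‖ := by
  have := (Lp.isometry_compMeasurePreserving (E := ℝ) (p := 2) (mp_add h)).dist_eq b b'
  rw [dist_eq_norm, dist_eq_norm] at this
  exact this

end

end Vale.Agent.P097.H289
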