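import Vale.Agent.P097.H289.Disc1

/-!
# P097, Bishop discs, part 2: the fixed point

For a Lipschitz function `D x ξ` with values in `[0,1]` and `0 < c ≤ 1/4` the equation
`b = c * D (p - T b, ξ)` (`T` the conjugate function) has a solution in `L²`; it is Lipschitz in
`p` and in `H¹`.
-/

open MeasureTheory Filter Topology
open scoped ENNReal ComplexConjugate NNReal

namespace Vale.Agent.P097.H289

noncomputable section

/-- the data of the equation -/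
structure Dat (D : ℝ → Ci → ℝ) : Prop where
  nonneg : ∀ x ξ, 0 ≤ D x ξ
  le_one : ∀ x ξ, D x ξ ≤ 1
  lip : ∀ x x' ξ ξ', |D x ξ - D x' ξ'| ≤ |x - x'| + ‖ξ - ξ'‖

theorem Dat.cont {D : ℝ → Ci → ℝ} (h : Dat D) : Continuous (fun z : ℝ × Ci => D z.1 z.2) := by
  rw [continuous_iff_continuousAt]
  rintro ⟨x, ξ⟩
  rw [ContinuousAt, tendsto_iff_dist_tendsto_zero]
  have h1 : Tendsto (fun z : ℝ × Ci => |z.1 - x| + ‖z.2 - ξ‖) (𝓝 (x, ξ)) (𝓝 0) := by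
    have : Continuous (fun z : ℝ × Ci => |z.1 - x| + ‖z.2 - ξ‖) := by fun_prop
    have h2 := this.tendsto (x, ξ)
    simpa using h2
  refine squeeze_zero (fun _ => dist_nonneg) (fun z => ?_) h1
  rw [Real.dist_eq]
  exact h.lip _ _ _ _

theorem meas_tj (b : FF) : AEStronglyMeasurable (tj b) hm := by
  unfold tj
  exact (Complex.continuous_im.comp_aestronglyMeasurable (Lp.aestronglyMeasurable _))

theorem meas_comp {D : ℝ → Ci → ℝ} (h : Dat D) (c p : ℝ) (b : FF) :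
    AEStronglyMeasurable (fun ξ => c * D (p - tj b ξ) ξ) hm := by
  have h1 : AEStronglyMeasurable (fun ξ : Ci => ((p - tj b ξ, ξ) : ℝ × Ci)) hm :=
    (aestronglyMeasurable_const.sub (meas_tj b)).prodMk aestronglyMeasurable_id
  have h2 := h.cont.comp_aestronglyMeasurable h1
  exact h2.const_mul c

theorem mem_comp {D : ℝ → Ci → ℝ} (h : Dat D) (c p : ℝ) (b : FF) :
    MemLp (fun ξ => c * D (p - tj b ξ) ξ) 2 hm := by
  refine MemLp.of_bound (meas_comp h c p b) |c| (Eventually.of_forall fun ξ => ?_)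
  rw [Real.norm_eq_abs, abs_mul, abs_of_nonneg (h.nonneg _ _)]
  have := h.le_one (p - tj b ξ) ξ
  nlinarith [abs_nonneg c]

/-- the map whose fixed point is wanted -/
def Ph {D : ℝ → Ci → ℝ} (h : Dat D) (c p : ℝ) (b : FF) : FF := (mem_comp h c p b).toLp _

theorem coe_Ph {D : ℝ → Ci → ℝ} (h : Dat D) (c p : ℝ) (b : FF) :
    (Ph h c p b : Ci → ℝ) =ᵐ[hm] fun ξ => c * D (p - tj b ξ) ξ := MemLp.coeFn_toLp _

theorem norm_le_add {f : FF} {g k : EE} (H : ∀ᵐ x ∂hm, ‖f x‖ ≤ ‖g x‖ + ‖k x‖) :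
    ‖f‖ ≤ ‖g‖ + ‖k‖ := by
  rw [Lp.norm_def, Lp.norm_def, Lp.norm_def, ← ENNReal.toReal_add (Lp.eLpNorm_ne_top g)
    (Lp.eLpNorm_ne_top k)]
  apply ENNReal.toReal_mono (ENNReal.add_ne_top.2 ⟨Lp.eLpNorm_ne_top g, Lp.eLpNorm_ne_top k⟩)
  calc eLpNorm f 2 hm ≤ eLpNorm (fun x => ‖(g : Ci → ℂ) x‖ + ‖(k : Ci → ℂ) x‖) 2 hm := by
        apply eLpNorm_mono_ae
        filter_upwards [H] with x hx
        exact hx.trans (le_abs_self _)
    _ ≤ eLpNorm (fun x => ‖(g : Ci → ℂ) x‖) 2 hm + eLpNorm (fun x => ‖(k : Ci → ℂ) x‖) 2 hm :=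
        eLpNorm_add_le (Lp.aestronglyMeasurable g).norm (Lp.aestronglyMeasurable k).norm
          (by norm_num)
    _ = eLpNorm g 2 hm + eLpNorm k 2 hm := by rw [eLpNorm_norm, eLpNorm_norm]

theorem norm_one' : ‖one'‖ = 1 := (orthonormal_fourier (T := (4 : ℝ))).1 0

theorem Ph_sub {D D' : ℝ → Ci → ℝ} (h : Dat D) (h' : Dat D') {c : ℝ} (hc : 0 ≤ c) (p q δ : ℝ)
    (hδ : ∀ x ξ, |D x ξ - D' x ξ| ≤ δ) (b b' : FF) :
    ‖Ph h c p b - Ph h' c q b'‖ ≤ c * (|p - q| + δ) + 2 * c * ‖b - b'‖ := by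
  have hδ0 : 0 ≤ δ := (abs_nonneg _).trans (hδ 0 0)
  set U : EE := ((c * (|p - q| + δ) : ℝ) : ℂ) • one' with hU
  set W : EE := ((c : ℝ) : ℂ) • ((2 : ℂ) • Pp (cx b) - (2 : ℂ) • Pp (cx b')) with hW
  have hUn : ‖U‖ = c * (|p - q| + δ) := by
    rw [hU, norm_smul, norm_one', mul_one, Complex.norm_real, Real.norm_of_nonneg (by positivity)]
  have hWn : ‖W‖ ≤ 2 * c * ‖b - b'‖ := by
    rw [hW, norm_smul, Complex.norm_real, Real.norm_of_nonneg hc, ← smul_sub, norm_smul,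
      ← map_sub, ← cx_sub]
    have h1 := norm_Pp_le (cx (b - b'))
    rw [norm_cx] at h1
    have h2 : ‖(2 : ℂ)‖ = 2 := by simp
    rw [h2]
    nlinarith
  refine (norm_le_add (g := U) (k := W) ?_).trans (by rw [hUn]; linarith)
  filter_upwards [Lp.coeFn_sub (Ph h c p b) (Ph h' c q b'), coe_Ph h c p b, coe_Ph h' c q b',
    Lp.coeFn_smul ((c * (|p - q| + δ) : ℝ) : ℂ) one', coe_one',
    Lp.coeFn_smul ((c : ℝ) : ℂ) ((2 : ℂ) • Pp (cx b) - (2 : ℂ) • Pp (cx b')),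
    Lp.coeFn_sub ((2 : ℂ) • Pp (cx b)) ((2 : ℂ) • Pp (cx b'))] with ξ h1 h2 h3 h4 h5 h6 h7
  rw [h1, Pi.sub_apply, h2, h3, h4, Pi.smul_apply, h5, h6, Pi.smul_apply, h7, Pi.sub_apply]
  rw [smul_eq_mul, mul_one, Complex.norm_real, Real.norm_of_nonneg (by positivity : 0 ≤
    c * (|p - q| + δ)), norm_smul, Complex.norm_real, Real.norm_of_nonneg hc, Real.norm_eq_abs,
    ← mul_sub, abs_mul, abs_of_nonneg hc, ← mul_add]
  apply mul_le_mul_of_nonneg_left _ hc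
  have e1 : |D (p - tj b ξ) ξ - D (q - tj b' ξ) ξ| ≤ |p - q| + |tj b ξ - tj b' ξ| := by
    have := h.lip (p - tj b ξ) (q - tj b' ξ) ξ ξ
    rw [sub_self, norm_zero, add_zero] at this
    refine this.trans ?_
    rw [show p - tj b ξ - (q - tj b' ξ) = (p - q) - (tj b ξ - tj b' ξ) by ring]
    exact abs_sub _ _
  have e2 : |D (q - tj b' ξ) ξ - D' (q - tj b' ξ) ξ| ≤ δ := hδ _ _
  have e3 : |tj b ξ - tj b' ξ| ≤ ‖((2 : ℂ) • Pp (cx b) : EE) ξ - ((2 : ℂ) • Pp (cx b') : EE) ξ‖ := by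
    unfold tj
    rw [← Complex.sub_im]
    exact Complex.abs_im_le_norm _
  calc |D (p - tj b ξ) ξ - D' (q - tj b' ξ) ξ|
      = |(D (p - tj b ξ) ξ - D (q - tj b' ξ) ξ) + (D (q - tj b' ξ) ξ - D' (q - tj b' ξ) ξ)| := by
        ring_nf
    _ ≤ _ := abs_add_le _ _
    _ ≤ (|p - q| + δ) + ‖((2 : ℂ) • Pp (cx b) : EE) ξ - ((2 : ℂ) • Pp (cx b') : EE) ξ‖ := by
        linarith

theorem exists_fix {D : ℝ → Ci → ℝ} (h : Dat D) {c : ℝ} (hc : 0 < c) (hc1 : c ≤ 1 / 4) (p : ℝ) :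
    ∃ b : FF, Ph h c p b = b := by
  have hk : ContractingWith (1 / 2 : ℝ≥0) (Ph h c p) := by
    refine ⟨by rw [← NNReal.coe_lt_coe]; norm_num, LipschitzWith.of_dist_le_mul fun b b' => ?_⟩
    rw [dist_eq_norm, dist_eq_norm]
    have := Ph_sub h h hc.le p p 0 (fun x ξ => by simp) b b'
    simp only [sub_self, abs_zero, add_zero, mul_zero, zero_add] at this
    refine this.trans ?_
    push_cast
    nlinarith [norm_nonneg (b - b')]
  exact ⟨hk.fixedPoint _, hk.fixedPoint_isFixedPt⟩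

theorem fix_sub {D D' : ℝ → Ci → ℝ} (h : Dat D) (h' : Dat D') {c : ℝ} (hc : 0 ≤ c)
    (hc1 : c ≤ 1 / 4) (p q δ : ℝ) (hδ : ∀ x ξ, |D x ξ - D' x ξ| ≤ δ) (b b' : FF)
    (hb : Ph h c p b = b) (hb' : Ph h' c q b' = b') :
    ‖b - b'‖ ≤ 2 * c * (|p - q| + δ) := by
  have h1 := Ph_sub h h' hc p q δ hδ b b'
  rw [hb, hb'] at h1
  nlinarith [norm_nonneg (b - b'), abs_nonneg (p - q)]

/-- translated data -/
theorem Dat.shift {D : ℝ → Ci → ℝ} (h : Dat D) (s : Ci) : Dat (fun x ξ => D x (ξ + s)) := by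
  refine ⟨fun x ξ => h.nonneg _ _, fun x ξ => h.le_one _ _, fun x x' ξ ξ' => ?_⟩
  have := h.lip x x' (ξ + s) (ξ' + s)
  rwa [add_sub_add_right_eq_sub] at this

theorem Ph_shift {D : ℝ → Ci → ℝ} (h : Dat D) (s : Ci) (c p : ℝ) (b : FF) :
    Ph (h.shift s) c p (shr s b) = shr s (Ph h c p b) := by
  apply Lp.ext
  have h0 := ae_shift (p := fun ξ => (Ph h c p b : Ci → ℝ) ξ = c * D (p - tj b ξ) ξ) s
    (coe_Ph h c p b)
  filter_upwards [coe_Ph (h.shift s) c p (shr s b), coe_shr s (Ph h c p b), tj_shr s b, h0]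
    with ξ h1 h2 h3 h4
  rw [h1, h2, h3, h4]

theorem fix_shift {D : ℝ → Ci → ℝ} (h : Dat D) {c : ℝ} (hc : 0 ≤ c)
    (hc1 : c ≤ 1 / 4) (p : ℝ) (b : FF) (hb : Ph h c p b = b) (s : Ci) :
    ‖shr s b - b‖ ≤ 2 * c * ‖s‖ := by
  have h1 : Ph (h.shift s) c p (shr s b) = shr s b := by rw [Ph_shift h, hb]
  have h2 := fix_sub (h.shift s) h hc hc1 p p ‖s‖ (fun x ξ => by
    have := h.lip x x (ξ + s) ξ
    simpa using this) (shr s b) b h1 hb
  simpa using h2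

theorem bessel (f : EE) (S : Finset ℤ) : ∑ n ∈ S, ‖fourierCoeff (f : Ci → ℂ) n‖ ^ 2 ≤ ‖f‖ ^ 2 := by
  have h := (orthonormal_fourier (T := (4 : ℝ))).sum_inner_products_le f (s := S)
  simpa only [inner_fourier] using h

theorem tendsto_quot (n : ℤ) : Tendsto (fun t : ℝ => ‖(fourier n ((t : ℝ) : Ci) : ℂ) - 1‖ ^ 2 / t ^ 2)
    (𝓝[>] 0) (𝓝 ((Real.pi * n / 2) ^ 2)) := by
  have h1 := hasDerivAt_fourier (4 : ℝ) n 0
  have h2 := h1.tendsto_slope_zero_right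
  have h3 := (h2.norm).pow 2
  have h4 : ‖(2 * Real.pi * Complex.I * n / (4 : ℝ) * fourier n (((0 : ℝ)) : AddCircle (4 : ℝ)) : ℂ)‖ ^ 2 =
      (Real.pi * n / 2) ^ 2 := by
    have h5 : (fourier n (((0 : ℝ)) : AddCircle (4 : ℝ)) : ℂ) = 1 := by
      rw [QuotientAddGroup.mk_zero, fourier_eval_zero]
    rw [h5, mul_one, norm_div, norm_mul, norm_mul, norm_mul]
    simp
    rw [← sq_abs (Real.pi * n / 2), abs_div, abs_mul]
    rw [abs_of_pos Real.pi_pos]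
    norm_num
    ring
  rw [h4] at h3
  refine h3.congr' ?_
  filter_upwards [self_mem_nhdsWithin] with t ht
  rw [zero_add, norm_smul, mul_pow, norm_inv, inv_pow, Real.norm_eq_abs, sq_abs,
    QuotientAddGroup.mk_zero, fourier_eval_zero]
  field_simp

theorem h1_bound {D : ℝ → Ci → ℝ} (h : Dat D) {c : ℝ} (hc : 0 ≤ c)
    (hc1 : c ≤ 1 / 4) (p : ℝ) (b : FF) (hb : Ph h c p b = b) (S : Finset ℤ) :
    ∑ n ∈ S, (Real.pi * n / 2) ^ 2 * ‖fourierCoeff (cx b : Ci → ℂ) n‖ ^ 2 ≤ 4 * c ^ 2 := by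
  have h1 : Tendsto (fun t : ℝ => ∑ n ∈ S, ‖(fourier n ((t : ℝ) : Ci) : ℂ) - 1‖ ^ 2 / t ^ 2 *
      ‖fourierCoeff (cx b : Ci → ℂ) n‖ ^ 2) (𝓝[>] 0)
      (𝓝 (∑ n ∈ S, (Real.pi * n / 2) ^ 2 * ‖fourierCoeff (cx b : Ci → ℂ) n‖ ^ 2)) :=
    tendsto_finsetSum _ fun n _ => (tendsto_quot n).mul_const _
  refine le_of_tendsto h1 ?_
  filter_upwards [self_mem_nhdsWithin] with t ht
  have ht0 : (0 : ℝ) < t := ht
  have h2 := fix_shift h hc hc1 p b hb ((t : ℝ) : Ci)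
  have h3 : ‖((t : ℝ) : Ci)‖ ≤ t := by
    have := QuotientAddGroup.norm_mk_le_norm (S := AddSubgroup.zmultiples (4 : ℝ)) (m := t)
    rw [Real.norm_of_nonneg ht0.le] at this
    exact this
  have h4 := bessel (cx (shr (t : Ci) b - b)) S
  rw [norm_cx] at h4
  have h5 : ∀ n : ℤ, fourierCoeff (cx (shr (t : Ci) b - b) : Ci → ℂ) n =
      ((fourier n ((t : ℝ) : Ci) : ℂ) - 1) * fourierCoeff (cx b : Ci → ℂ) n := by
    intro n
    rw [cx_sub, cx_shr, sub_eq_add_neg, coeff_add, coeff_sh]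
    have : -cx b = (-1 : ℂ) • cx b := by rw [neg_smul, one_smul]
    rw [this, coeff_smul]
    ring
  simp only [h5, norm_mul, mul_pow] at h4
  have h6 : ‖shr (t : Ci) b - b‖ ≤ 2 * c * t := h2.trans (by gcongr)
  have h7 : ‖shr (t : Ci) b - b‖ ^ 2 ≤ (2 * c * t) ^ 2 := by gcongr
  have h8 : ∑ n ∈ S, ‖(fourier n ((t : ℝ) : Ci) : ℂ) - 1‖ ^ 2 / t ^ 2 *
      ‖fourierCoeff (cx b : Ci → ℂ) n‖ ^ 2 = (∑ n ∈ S, ‖(fourier n ((t : ℝ) : Ci) : ℂ) - 1‖ ^ 2 *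
      ‖fourierCoeff (cx b : Ci → ℂ) n‖ ^ 2) / t ^ 2 := by
    rw [Finset.sum_div]
    exact Finset.sum_congr rfl fun n _ => by ring
  rw [h8, div_le_iff₀ (by positivity)]
  nlinarith

end

end Vale.Agent.P097.H289
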