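import Vale.Agent.P097.H289.Disc2

/-!
# P097, Bishop discs, part 3: the holomorphic extension

`Hf a ζ = ∑ a n exp (π i n ζ / 2)` on the closed upper half plane for coefficients with
`∑ n² |a n|² ≤ B²`; for the coefficients of the fixed point its boundary values solve Bishop's
equation at every real point.
-/

open MeasureTheory Filter Topology
open scoped ENNReal ComplexConjugate NNReal

namespace Vale.Agent.P097.H289

noncomputable section

/-- one term of the series -/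
def trm (a : ℕ → ℂ) (n : ℕ) (ζ : ℂ) : ℂ := a n * Complex.exp (Real.pi * Complex.I * n * ζ / 2)

/-- the holomorphic function with the coefficients `a` -/
def Hf (a : ℕ → ℂ) (ζ : ℂ) : ℂ := ∑' n, trm a n ζ

/-- square summability of the derivative -/
def Sq (a : ℕ → ℂ) (B : ℝ) : Prop := ∀ N : ℕ, ∑ n ∈ Finset.range N, (n : ℝ) ^ 2 * ‖a n‖ ^ 2 ≤ B ^ 2

theorem norm_ex (n : ℕ) (ζ : ℂ) :
    ‖Complex.exp (Real.pi * Complex.I * n * ζ / 2)‖ = Real.exp (-(Real.pi * n * ζ.im / 2)) := by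
  rw [Complex.norm_exp]
  congr 1
  have : (Real.pi * Complex.I * n * ζ / 2 : ℂ) = (((Real.pi * n / 2 : ℝ) : ℂ)) * (Complex.I * ζ) := by
    push_cast; ring
  rw [this, Complex.re_ofReal_mul]
  simp
  ring

theorem norm_ex_le (n : ℕ) {ζ : ℂ} (h : 0 ≤ ζ.im) :
    ‖Complex.exp (Real.pi * Complex.I * n * ζ / 2)‖ ≤ 1 := by
  rw [norm_ex]
  apply Real.exp_le_one_iff.2
  have := Real.pi_pos
  have : 0 ≤ Real.pi * n * ζ.im / 2 := by positivity
  linarith

theorem norm_trm_le (a : ℕ → ℂ) (n : ℕ) {ζ : ℂ} (h : 0 ≤ ζ.im) : ‖trm a n ζ‖ ≤ ‖a n‖ := by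
  unfold trm
  rw [norm_mul]
  exact mul_le_of_le_one_right (norm_nonneg _) (norm_ex_le n h)

theorem tail_le {a : ℕ → ℂ} {B : ℝ} (hB : 0 ≤ B) (h : Sq a B) {N : ℕ} (hN : 1 ≤ N) (M : ℕ) :
    ∑ n ∈ Finset.Ico N M, ‖a n‖ ≤ B * √(2 / N) := by
  have h1 : (∑ n ∈ Finset.Ico N M, ‖a n‖) ^ 2 ≤ (B * √(2 / N)) ^ 2 := by
    have h2 : ∑ n ∈ Finset.Ico N M, ‖a n‖ = ∑ n ∈ Finset.Ico N M, ((n : ℝ)⁻¹) * ((n : ℝ) * ‖a n‖) := by
      apply Finset.sum_congr rfl
      intro n hn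
      have : (n : ℝ) ≠ 0 := by
        have := (Finset.mem_Ico.1 hn).1
        have : 0 < n := by omega
        positivity
      field_simp
    rw [h2]
    refine (Finset.sum_mul_sq_le_sq_mul_sq _ _ _).trans ?_
    rw [mul_pow, Real.sq_sqrt (by positivity), mul_comm (B ^ 2)]
    apply mul_le_mul _ _ (Finset.sum_nonneg fun _ _ => by positivity) (by positivity)
    · have h3 := sum_Ioo_inv_sq_le (α := ℝ) (N - 1) M
      have h4 : Finset.Ioo (N - 1) M = Finset.Ico N M := by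
        ext x
        simp only [Finset.mem_Ioo, Finset.mem_Ico]
        omega
      rw [h4] at h3
      have h5 : (((N - 1 : ℕ) : ℝ) + 1) = N := by
        rw [← Nat.cast_add_one]
        congr 1
        omega
      rw [h5] at h3
      simpa only [inv_pow] using h3
    · refine le_trans ?_ (h M)
      have : ∀ n : ℕ, ((n : ℝ) * ‖a n‖) ^ 2 = (n : ℝ) ^ 2 * ‖a n‖ ^ 2 := fun n => by ring
      simp only [this]
      apply Finset.sum_le_sum_of_subset_of_nonneg
      · intro x hx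
        exact Finset.mem_range.2 (Finset.mem_Ico.1 hx).2
      · intro i _ _
        positivity
  exact le_of_sq_le_sq h1 (by positivity)

theorem sum_le {a : ℕ → ℂ} {B : ℝ} (hB : 0 ≤ B) (h : Sq a B) (M : ℕ) :
    ∑ n ∈ Finset.range M, ‖a n‖ ≤ ‖a 0‖ + B * √2 := by
  rcases Nat.eq_zero_or_pos M with h0 | h0
  · subst h0
    simp
    positivity
  · have h1 := tail_le hB h le_rfl M
    rw [← Finset.sum_range_add_sum_Ico _ h0]
    simp at h1
    simp
    exact h1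

theorem summable_norm {a : ℕ → ℂ} {B : ℝ} (hB : 0 ≤ B) (h : Sq a B) : Summable (fun n => ‖a n‖) :=
  summable_of_sum_range_le (fun n => norm_nonneg _) (sum_le hB h)

theorem tail_tsum {a : ℕ → ℂ} {B : ℝ} (hB : 0 ≤ B) (h : Sq a B) {N : ℕ} (hN : 1 ≤ N) :
    ∑' n, ‖a (n + N)‖ ≤ B * √(2 / N) := by
  apply Real.tsum_le_of_sum_range_le (fun n => norm_nonneg _)
  intro M
  have h1 := tail_le hB h hN (N + M)
  rw [Finset.sum_Ico_eq_sum_range] at h1
  simpa [add_comm] using h1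

theorem summable_trm {a : ℕ → ℂ} {B : ℝ} (hB : 0 ≤ B) (h : Sq a B) {ζ : ℂ} (hζ : 0 ≤ ζ.im) :
    Summable (fun n => trm a n ζ) :=
  Summable.of_norm_bounded (summable_norm hB h) fun n => norm_trm_le a n hζ

theorem norm_Hf_le {a : ℕ → ℂ} {B : ℝ} (hB : 0 ≤ B) (h : Sq a B) {ζ : ℂ} (hζ : 0 ≤ ζ.im) :
    ‖Hf a ζ‖ ≤ ‖a 0‖ + B * √2 := by
  unfold Hf
  refine (tsum_of_norm_bounded (summable_norm hB h).hasSum fun n => norm_trm_le a n hζ).trans ?_
  exact Real.tsum_le_of_sum_range_le (fun n => norm_nonneg _) (sum_le hB h)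

theorem Hf_sub_le {a : ℕ → ℂ} {B : ℝ} (hB : 0 ≤ B) (h : Sq a B) {ζ : ℂ} (hζ : 0 ≤ ζ.im)
    {N : ℕ} (hN : 1 ≤ N) : ‖Hf a ζ - ∑ n ∈ Finset.range N, trm a n ζ‖ ≤ B * √(2 / N) := by
  have h1 := (summable_trm hB h hζ).sum_add_tsum_nat_add N
  unfold Hf
  rw [← h1, add_sub_cancel_left]
  have h2 : Summable (fun n => ‖a (n + N)‖) := (summable_nat_add_iff N).2 (summable_norm hB h)
  exact (tsum_of_norm_bounded h2.hasSum fun n => norm_trm_le a (n + N) hζ).trans (tail_tsum hB h hN)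

theorem continuous_trm {X : Type*} [TopologicalSpace X] {A : X → ℕ → ℂ} (n : ℕ)
    (hA : Continuous fun p => A p n) : Continuous (fun z : X × ℂ => trm (A z.1) n z.2) := by
  unfold trm
  exact (hA.comp continuous_fst).mul (by fun_prop)

/-- joint continuity in the parameter and the point, up to the boundary -/
theorem Hf_continuousOn {X : Type*} [TopologicalSpace X] {A : X → ℕ → ℂ} {B : ℝ} (hB : 0 ≤ B)
    (h : ∀ p, Sq (A p) B) (hA : ∀ n, Continuous fun p => A p n) :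
    ContinuousOn (fun z : X × ℂ => Hf (A z.1) z.2) {z | 0 ≤ z.2.im} := by
  have h1 : TendstoUniformlyOn (fun (N : ℕ) (z : X × ℂ) => ∑ n ∈ Finset.range N, trm (A z.1) n z.2)
      (fun z : X × ℂ => Hf (A z.1) z.2) atTop {z | 0 ≤ z.2.im} := by
    rw [Metric.tendstoUniformlyOn_iff]
    intro ε hε
    have h2 : Tendsto (fun N : ℕ => B * √(2 / (N : ℝ))) atTop (𝓝 0) := by
      have h3 : Tendsto (fun N : ℕ => (2 : ℝ) / N) atTop (𝓝 0) :=
        tendsto_const_div_atTop_nhds_zero_nat 2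
      have h4 := (h3.sqrt).const_mul B
      simpa using h4
    filter_upwards [h2.eventually_lt_const hε, eventually_ge_atTop 1] with N hN hN1 z hz
    rw [dist_eq_norm]
    exact (Hf_sub_le hB (h z.1) hz hN1).trans_lt hN
  exact h1.continuousOn (Eventually.of_forall fun N => (continuous_finsetSum _ fun n _ =>
    continuous_trm n (hA n)).continuousOn).frequently

theorem Hf_continuousOn' {a : ℕ → ℂ} {B : ℝ} (hB : 0 ≤ B)
    (h : Sq a B) : ContinuousOn (Hf a) {ζ | 0 ≤ ζ.im} := by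
  have h1 : ContinuousOn (fun z : ℝ × ℂ => Hf a z.2) {z | 0 ≤ z.2.im} :=
    Hf_continuousOn (X := ℝ) (A := fun _ => a) hB (fun _ => h) (fun n => continuous_const)
  have h2 : Continuous (fun ζ : ℂ => ((0, ζ) : ℝ × ℂ)) := by fun_prop
  have h3 : ContinuousOn ((fun z : ℝ × ℂ => Hf a z.2) ∘ fun ζ : ℂ => ((0, ζ) : ℝ × ℂ))
      {ζ | 0 ≤ ζ.im} := h1.comp h2.continuousOn fun ζ hζ => hζ
  exact h3

theorem hasDerivAt_trm (a : ℕ → ℂ) (n : ℕ) (ζ : ℂ) :
    HasDerivAt (trm a n) (trm (fun m => Real.pi * Complex.I * m / 2 * a m) n ζ) ζ := by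
  unfold trm
  have h1 : HasDerivAt (fun ζ : ℂ => (Real.pi * Complex.I * n * ζ / 2 : ℂ))
      (Real.pi * Complex.I * n / 2) ζ := by
    have := ((hasDerivAt_id ζ).const_mul (Real.pi * Complex.I * n : ℂ)).div_const 2
    simpa using this
  have h2 := (h1.cexp).const_mul (a n)
  refine h2.congr_deriv ?_
  ring

theorem isOpen_up : IsOpen {ζ : ℂ | 0 < ζ.im} := isOpen_lt continuous_const Complex.continuous_im

theorem Hf_hasDerivAt {a : ℕ → ℂ} {B : ℝ} (hB : 0 ≤ B) (h : Sq a B) {ζ : ℂ} (hζ : 0 < ζ.im) :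
    HasDerivAt (Hf a) (Hf (fun m => Real.pi * Complex.I * m / 2 * a m) ζ) ζ := by
  have hd : ∀ n, DifferentiableOn ℂ (trm a n) {ζ : ℂ | 0 < ζ.im} := fun n z _ =>
    (hasDerivAt_trm a n z).differentiableAt.differentiableWithinAt
  have hb : ∀ n, ∀ w : ℂ, w ∈ {ζ : ℂ | 0 < ζ.im} → ‖trm a n w‖ ≤ ‖a n‖ := fun n w hw =>
    norm_trm_le a n (le_of_lt hw)
  have h1 := Complex.differentiableOn_tsum_of_summable_norm (summable_norm hB h) hd isOpen_up
    (fun i w hw => hb i w hw)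
  have h2 := Complex.hasSum_deriv_of_summable_norm (summable_norm hB h) hd isOpen_up
    (fun i w hw => hb i w hw) hζ
  have h3 : deriv (fun w => ∑' i, trm a i w) ζ = Hf (fun m => Real.pi * Complex.I * m / 2 * a m) ζ := by
    unfold Hf
    rw [← h2.tsum_eq]
    exact tsum_congr fun n => (hasDerivAt_trm a n ζ).deriv
  have h4 := (h1.differentiableAt (isOpen_up.mem_nhds hζ)).hasDerivAt
  rw [h3] at h4
  exact h4

/-! ## the coefficients of the fixed point -/

/-- the coefficients of the extension of `b` -/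
def co (b : FF) (n : ℕ) : ℂ := fourierCoeff (hd b : Ci → ℂ) (n : ℤ)

theorem co_zero_le (b : FF) : ‖co b 0‖ ≤ ‖b‖ := by
  unfold co
  rw [coeff_hd, Nat.cast_zero, if_pos rfl, ← norm_cx b]
  exact norm_coeff_le _ _

theorem co_sq {D : ℝ → Ci → ℝ} (h : Dat D) {c : ℝ} (hc : 0 ≤ c)
    (hc1 : c ≤ 1 / 4) (p : ℝ) (b : FF) (hb : Ph h c p b = b) : Sq (co b) (3 * c) := by
  intro N
  have h1 := h1_bound h hc hc1 p b hb ((Finset.range N).map Nat.castEmbedding)
  rw [Finset.sum_map] at h1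
  have hpi : 9 < Real.pi ^ 2 := by nlinarith [Real.pi_gt_three]
  have h2 : ∀ n ∈ Finset.range N, (n : ℝ) ^ 2 * ‖co b n‖ ^ 2 ≤ 16 / Real.pi ^ 2 *
      ((Real.pi * ((Nat.castEmbedding n : ℤ) : ℝ) / 2) ^ 2 *
        ‖fourierCoeff (cx b : Ci → ℂ) (Nat.castEmbedding n : ℤ)‖ ^ 2) := by
    intro n _
    have e1 : (Nat.castEmbedding n : ℤ) = (n : ℤ) := rfl
    rw [e1]
    unfold co
    rw [coeff_hd]
    rcases Nat.eq_zero_or_pos n with h0 | h0
    · subst h0; simp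
    · rw [if_neg (by omega), if_pos (by omega), norm_mul]
      have : ‖(2 : ℂ)‖ = 2 := by simp
      rw [this]
      apply le_of_eq
      push_cast
      field_simp
      ring
  calc ∑ n ∈ Finset.range N, (n : ℝ) ^ 2 * ‖co b n‖ ^ 2 ≤ _ := Finset.sum_le_sum h2
    _ = 16 / Real.pi ^ 2 * ∑ n ∈ Finset.range N,
      ((Real.pi * ((Nat.castEmbedding n : ℤ) : ℝ) / 2) ^ 2 *
        ‖fourierCoeff (cx b : Ci → ℂ) (Nat.castEmbedding n : ℤ)‖ ^ 2) := by rw [Finset.mul_sum]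
    _ ≤ 16 / Real.pi ^ 2 * (4 * c ^ 2) := by gcongr
    _ ≤ (3 * c) ^ 2 := by
      rw [div_mul_eq_mul_div, div_le_iff₀ (by positivity)]
      nlinarith [sq_nonneg c]

theorem trm_real (b : FF) (n : ℕ) (x : ℝ) :
    trm (co b) n (x : ℂ) = fourierCoeff (hd b : Ci → ℂ) (n : ℤ) * fourier (n : ℤ) (x : Ci) := by
  unfold trm co
  rw [fourier_coe_apply]
  congr 2
  push_cast
  ring

/-- the boundary values as a continuous function on the circle -/
theorem exists_bdry {b : FF} {B : ℝ} (hB : 0 ≤ B) (hs : Sq (co b) B) :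
    ∃ G : C(Ci, ℂ), (∀ x : ℝ, G (x : Ci) = Hf (co b) x) ∧ (G : Ci → ℂ) =ᵐ[hm] (hd b : Ci → ℂ) := by
  have hz : ∀ n : ℤ, n ∉ Set.range ((↑) : ℕ → ℤ) → fourierCoeff (hd b : Ci → ℂ) n = 0 := by
    intro n hn
    have h1 : n < 0 := by
      by_contra h2
      exact hn ⟨n.toNat, by simp; omega⟩
    rw [coeff_hd, if_neg h1.ne, if_neg (by omega)]
  have h1 : Summable (fun n : ℤ => ‖fourierCoeff (hd b : Ci → ℂ) n‖) := by
    have h2 := summable_norm hB hs
    refine (Function.Injective.summable_iff (g := ((↑) : ℕ → ℤ)) Nat.cast_injective ?_).1 h2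
    intro n hn
    rw [hz n hn, norm_zero]
  have h2 : Summable (fun n : ℤ => fourierCoeff (hd b : Ci → ℂ) n • (fourier n : C(Ci, ℂ))) := by
    apply Summable.of_norm
    simpa only [norm_smul, fourier_norm, mul_one] using h1
  refine ⟨∑' n : ℤ, fourierCoeff (hd b : Ci → ℂ) n • (fourier n : C(Ci, ℂ)), fun x => ?_, ?_⟩
  · have h3 := (ContinuousMap.evalCLM ℂ (x : Ci)).hasSum h2.hasSum
    have h4 : HasSum (fun n : ℤ => fourierCoeff (hd b : Ci → ℂ) n * fourier n (x : Ci))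
        ((∑' n : ℤ, fourierCoeff (hd b : Ci → ℂ) n • (fourier n : C(Ci, ℂ))) (x : Ci)) := by
      convert! h3
    have h5 := (Function.Injective.hasSum_iff (g := ((↑) : ℕ → ℤ)) Nat.cast_injective
      (fun n hn => by rw [hz n hn, zero_mul])).2 h4
    unfold Hf
    rw [← h5.tsum_eq]
    exact (tsum_congr fun n => trm_real b n x).symm
  · have h3 := (ContinuousMap.toLp (E := ℂ) 2 hm ℂ).hasSum h2.hasSum
    have h4 := hasSum_fourier_series_L2 (T := (4 : ℝ)) (hd b)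
    have h5 : ContinuousMap.toLp (E := ℂ) 2 hm ℂ
        (∑' n : ℤ, fourierCoeff (hd b : Ci → ℂ) n • (fourier n : C(Ci, ℂ))) = hd b := by
      refine h3.unique ?_
      convert h4 using 1
      ext1 n
      rw [map_smul]
    have h6 := ContinuousMap.coeFn_toLp (E := ℂ) (𝕜 := ℂ) (p := 2) (μ := hm)
      (∑' n : ℤ, fourierCoeff (hd b : Ci → ℂ) n • (fourier n : C(Ci, ℂ)))
    rw [h5] at h6
    exact h6.symm

theorem bishop_eq {D : ℝ → Ci → ℝ} (h : Dat D) {c : ℝ} (hc : 0 ≤ c)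
    (hc1 : c ≤ 1 / 4) (p : ℝ) (b : FF) (hb : Ph h c p b = b) (x : ℝ) :
    (Hf (co b) x).re = c * D (p - (Hf (co b) x).im) (x : Ci) := by
  obtain ⟨G, hG1, hG2⟩ := exists_bdry (by positivity) (co_sq h hc hc1 p b hb)
  have h1 : (fun ξ : Ci => (G ξ).re) =ᵐ[hm] fun ξ : Ci => c * D (p - (G ξ).im) ξ := by
    have h2 := coe_Ph h c p b
    rw [hb] at h2
    filter_upwards [hG2, re_hd b, im_hd b, h2] with ξ e1 e2 e3 e4
    rw [e1, e2, e3, e4]
  have h2 : Continuous (fun ξ : Ci => (G ξ).re) := by fun_prop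
  have h3 : Continuous (fun ξ : Ci => c * D (p - (G ξ).im) ξ) := by
    have : Continuous (fun ξ : Ci => ((p - (G ξ).im, ξ) : ℝ × Ci)) := by fun_prop
    exact (h.cont.comp this).const_mul c
  have h4 := (Continuous.ae_eq_iff_eq hm h2 h3).1 h1
  have h5 := congrFun h4 (x : Ci)
  simp only [hG1] at h5
  exact h5

end

end Vale.Agent.P097.H289
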