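import Vale.Agent.P097.H289.Disc3

/-!
# P097, Bishop discs, part 4: the maximal inequality on the circle

Weak type estimates for averages over balls (Vitali), and the bound of Poisson integrals by them.
-/

open MeasureTheory Filter Topology
open scoped ENNReal ComplexConjugate NNReal

namespace Vale.Agent.P097.H289

noncomputable section

theorem hm_ball (ξ : Ci) (ρ : ℝ) : hm (Metric.closedBall ξ ρ) ≤ ENNReal.ofReal (ρ / 2) := by
  have h1 := AddCircle.volume_closedBall (T := (4 : ℝ)) (x := ξ) ρ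
  rw [AddCircle.volume_eq_smul_haarAddCircle, Measure.smul_apply, smul_eq_mul] at h1
  have h2 : ENNReal.ofReal 4 * hm (Metric.closedBall ξ ρ) ≤ ENNReal.ofReal 4 * ENNReal.ofReal (ρ / 2) := by
    rw [h1, ← ENNReal.ofReal_mul (by norm_num)]
    exact ENNReal.ofReal_le_ofReal ((min_le_right _ _).trans (by linarith))
  have h3 : ENNReal.ofReal (4 : ℝ) ≠ 0 := by simp
  exact (ENNReal.mul_le_mul_iff_right h3 ENNReal.ofReal_ne_top).1 h2

/-- the set where some average over a ball is large -/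
def Big (g : Ci → ℝ≥0∞) (l : ℝ) : Set Ci :=
  {ξ | ∃ ρ : ℝ, 0 < ρ ∧ ρ ≤ 2 ∧ ENNReal.ofReal (l * ρ) < ∫⁻ s in Metric.closedBall ξ ρ, g s ∂hm}

theorem weak_one (g : Ci → ℝ≥0∞) {l : ℝ} (hl : 0 < l) :
    ENNReal.ofReal l * hm (Big g l) ≤ ENNReal.ofReal (5 / 2) * ∫⁻ s, g s ∂hm := by
  have hch : ∀ ξ : Ci, ∃ ρ : ℝ, ξ ∈ Big g l → (0 < ρ ∧ ρ ≤ 2 ∧
      ENNReal.ofReal (l * ρ) < ∫⁻ s in Metric.closedBall ξ ρ, g s ∂hm) := by
    intro ξ
    by_cases h : ξ ∈ Big g l
    · obtain ⟨ρ, h1⟩ := h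
      exact ⟨ρ, fun _ => h1⟩
    · exact ⟨0, fun h2 => absurd h2 h⟩
  choose ρ hρ using hch
  obtain ⟨u, hut, hud, huc⟩ := Vitali.exists_disjoint_subfamily_covering_enlargement_closedBall
    (Big g l) (fun ξ : Ci => ξ) ρ 2 (fun ξ hξ => (hρ ξ hξ).2.1) 5 (by norm_num)
  have hcount : u.Countable := by
    refine hud.countable_of_nonempty_interior fun ξ hξ => ?_
    exact ⟨ξ, Metric.ball_subset_interior_closedBall (Metric.mem_ball_self (hρ ξ (hut hξ)).1)⟩
  have hcov : Big g l ⊆ ⋃ ξ ∈ u, Metric.closedBall ξ (5 * ρ ξ) := by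
    intro ξ hξ
    obtain ⟨η, hη, hs⟩ := huc ξ hξ
    exact Set.mem_biUnion hη (hs (Metric.mem_closedBall_self (hρ ξ hξ).1.le))
  have h1 : hm (Big g l) ≤ ∑' ξ : u, ENNReal.ofReal (5 * ρ ξ / 2) := by
    refine (measure_mono hcov).trans ((measure_biUnion_le _ hcount _).trans ?_)
    exact ENNReal.tsum_le_tsum fun ξ => hm_ball _ _
  calc ENNReal.ofReal l * hm (Big g l) ≤ ENNReal.ofReal l * ∑' ξ : u, ENNReal.ofReal (5 * ρ ξ / 2) := by
        gcongr
    _ = ∑' ξ : u, ENNReal.ofReal (5 / 2) * ENNReal.ofReal (l * ρ ξ) := by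
        rw [← ENNReal.tsum_mul_left]
        refine tsum_congr fun ξ => ?_
        rw [← ENNReal.ofReal_mul hl.le, ← ENNReal.ofReal_mul (by norm_num)]
        congr 1
        ring
    _ ≤ ∑' ξ : u, ENNReal.ofReal (5 / 2) * ∫⁻ s in Metric.closedBall (ξ : Ci) (ρ ξ), g s ∂hm := by
        refine ENNReal.tsum_le_tsum fun ξ => ?_
        have := (hρ ξ (hut ξ.2)).2.2.le
        gcongr
    _ = ENNReal.ofReal (5 / 2) * ∑' ξ : u, ∫⁻ s in Metric.closedBall (ξ : Ci) (ρ ξ), g s ∂hm := by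
        rw [ENNReal.tsum_mul_left]
    _ = ENNReal.ofReal (5 / 2) * ∫⁻ s in ⋃ ξ ∈ u, Metric.closedBall ξ (ρ ξ), g s ∂hm := by
        rw [lintegral_biUnion hcount (fun ξ _ => Metric.isClosed_closedBall.measurableSet) hud]
    _ ≤ ENNReal.ofReal (5 / 2) * ∫⁻ s, g s ∂hm := by
        gcongr
        exact Measure.restrict_le_self

theorem weak_two (g : Ci → ℝ≥0∞) {l : ℝ} (hl : 0 < l) :
    ENNReal.ofReal (l ^ 2) * hm (Big g l) ≤ ENNReal.ofReal 5 * ∫⁻ s, g s ^ 2 ∂hm := by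
  set g1 : Ci → ℝ≥0∞ := fun s => if g s ≤ ENNReal.ofReal l then 0 else g s with hg1
  have h1 : ∀ s, g s ≤ g1 s + ENNReal.ofReal l := by
    intro s
    simp only [hg1]
    split_ifs with h
    · rw [zero_add]; exact h
    · exact le_self_add
  have h2 : Big g l ⊆ Big g1 (l / 2) := by
    rintro ξ ⟨ρ, h0, h3, h4⟩
    refine ⟨ρ, h0, h3, ?_⟩
    have h5 : ∫⁻ s in Metric.closedBall ξ ρ, g s ∂hm ≤
        ∫⁻ s in Metric.closedBall ξ ρ, g1 s ∂hm + ENNReal.ofReal (l * ρ / 2) := by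
      calc ∫⁻ s in Metric.closedBall ξ ρ, g s ∂hm
          ≤ ∫⁻ s in Metric.closedBall ξ ρ, (g1 s + ENNReal.ofReal l) ∂hm := lintegral_mono h1
        _ = ∫⁻ s in Metric.closedBall ξ ρ, g1 s ∂hm +
            ENNReal.ofReal l * hm (Metric.closedBall ξ ρ) := by
            rw [lintegral_add_right _ measurable_const, lintegral_const, Measure.restrict_apply_univ]
        _ ≤ _ := by
            gcongr
            calc ENNReal.ofReal l * hm (Metric.closedBall ξ ρ) ≤
                ENNReal.ofReal l * ENNReal.ofReal (ρ / 2) := by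
                  gcongr
                  exact hm_ball _ _
              _ = ENNReal.ofReal (l * ρ / 2) := by
                  rw [← ENNReal.ofReal_mul hl.le]
                  congr 1
                  ring
    have h6 : ENNReal.ofReal (l * ρ) = ENNReal.ofReal (l / 2 * ρ) + ENNReal.ofReal (l * ρ / 2) := by
      rw [← ENNReal.ofReal_add (by positivity) (by positivity)]
      congr 1
      ring
    have h7 := h4.trans_le h5
    rw [h6] at h7
    exact lt_of_add_lt_add_right h7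
  have h3 := weak_one g1 (l := l / 2) (by positivity)
  have h4 : ENNReal.ofReal l * ∫⁻ s, g1 s ∂hm ≤ ∫⁻ s, g s ^ 2 ∂hm := by
    rw [← lintegral_const_mul' _ _ ENNReal.ofReal_ne_top]
    refine lintegral_mono fun s => ?_
    simp only [hg1]
    split_ifs with h
    · simp
    · rw [sq]
      gcongr
      exact (not_le.1 h).le
  calc ENNReal.ofReal (l ^ 2) * hm (Big g l) ≤ ENNReal.ofReal (l ^ 2) * hm (Big g1 (l / 2)) := by
        gcongr
    _ = ENNReal.ofReal 2 * ENNReal.ofReal l * (ENNReal.ofReal (l / 2) * hm (Big g1 (l / 2))) := by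
        rw [← ENNReal.ofReal_mul (by norm_num), ← mul_assoc, ← ENNReal.ofReal_mul (by positivity)]
        congr 2
        ring
    _ ≤ ENNReal.ofReal 2 * ENNReal.ofReal l * (ENNReal.ofReal (5 / 2) * ∫⁻ s, g1 s ∂hm) := by
        gcongr
    _ = ENNReal.ofReal 5 * (ENNReal.ofReal l * ∫⁻ s, g1 s ∂hm) := by
        have : ENNReal.ofReal 5 = ENNReal.ofReal 2 * ENNReal.ofReal (5 / 2) := by
          rw [← ENNReal.ofReal_mul (by norm_num)]
          norm_num
        rw [this]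
        ring
    _ ≤ _ := by gcongr

theorem dyadic_le (x : ℝ) {t : ℝ} (ht : 0 < t) :
    ∃ j : ℕ, x ≤ 2 ^ j * t ∧ t / (t ^ 2 + x ^ 2) ≤ 4 * (1 / 4 : ℝ) ^ j / t := by
  classical
  have hex : ∃ j : ℕ, x ≤ 2 ^ j * t := by
    obtain ⟨j, hj⟩ := pow_unbounded_of_one_lt (x / t) (by norm_num : (1 : ℝ) < 2)
    exact ⟨j, by rw [div_lt_iff₀ ht] at hj; exact hj.le⟩
  refine ⟨Nat.find hex, Nat.find_spec hex, ?_⟩
  rcases Nat.eq_zero_or_pos (Nat.find hex) with h0 | h0
  · rw [h0, div_le_div_iff₀ (by positivity) ht]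
    simp
    nlinarith [sq_nonneg x, sq_nonneg t]
  · obtain ⟨j, hj⟩ := Nat.exists_eq_succ_of_ne_zero h0.ne'
    have h1 := Nat.find_min hex (m := j) (by omega)
    rw [hj]
    push Not at h1
    have h2 : (2 ^ j * t) ^ 2 ≤ x ^ 2 := by gcongr
    have h3 : (1 / 4 : ℝ) ^ (j + 1) * (4 * (2 ^ j) ^ 2) = 1 := by
      have h5 : (1 / 4 : ℝ) ^ j * (2 ^ j) ^ 2 = 1 := by
        rw [← pow_mul, mul_comm j 2, pow_mul, ← mul_pow]
        norm_num
      rw [pow_succ]
      linear_combination h5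
    rw [Nat.succ_eq_add_one, div_le_div_iff₀ (by positivity) ht]
    have h4 : t * t * ((1 / 4 : ℝ) ^ (j + 1) * (4 * (2 ^ j) ^ 2)) ≤
        4 * (1 / 4 : ℝ) ^ (j + 1) * (t ^ 2 + x ^ 2) := by
      have : 0 ≤ (1 / 4 : ℝ) ^ (j + 1) := by positivity
      nlinarith [mul_nonneg this (sub_nonneg.2 h2), mul_nonneg this (sq_nonneg t)]
    rw [h3, mul_one] at h4
    exact h4

theorem ball_univ (ξ : Ci) : Metric.closedBall ξ (2 : ℝ) = Set.univ := by
  have h := AddCircle.closedBall_eq_univ_of_half_period_le (4 : ℝ) (by norm_num) ξ (ε := 2)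
    (by norm_num)
  exact h

/-- outside the exceptional set the Poisson type averages are small -/
theorem poisson_le {g : Ci → ℝ≥0∞} (hg : AEMeasurable g hm) {l : ℝ} (hl : 0 < l) {ξ : Ci}
    (hξ : ξ ∉ Big g l) {t : ℝ} (ht : 0 < t) :
    ∫⁻ s, ENNReal.ofReal (t / (t ^ 2 + ‖ξ - s‖ ^ 2)) * g s ∂hm ≤ ENNReal.ofReal (8 * l) := by
  have h1 : ∀ s, ENNReal.ofReal (t / (t ^ 2 + ‖ξ - s‖ ^ 2)) * g s ≤
      ∑' j : ℕ, ENNReal.ofReal (4 * (1 / 4 : ℝ) ^ j / t) *
        (Metric.closedBall ξ (2 ^ j * t)).indicator g s := by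
    intro s
    obtain ⟨j, hj1, hj2⟩ := dyadic_le ‖ξ - s‖ ht
    refine le_trans ?_ (ENNReal.le_tsum j)
    have hmem : s ∈ Metric.closedBall ξ (2 ^ j * t) := by
      rw [Metric.mem_closedBall, dist_comm, dist_eq_norm]
      exact hj1
    rw [Set.indicator_of_mem hmem]
    gcongr
  have h2 : ∀ j : ℕ, ∫⁻ s in Metric.closedBall ξ (2 ^ j * t), g s ∂hm ≤ ENNReal.ofReal (l * (2 ^ j * t)) := by
    intro j
    rcases le_or_gt (2 ^ j * t) 2 with h | h
    · by_contra hcon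
      exact hξ ⟨2 ^ j * t, by positivity, h, not_le.1 hcon⟩
    · have h3 : ∫⁻ s in Metric.closedBall ξ (2 : ℝ), g s ∂hm ≤ ENNReal.ofReal (l * 2) := by
        by_contra hcon
        exact hξ ⟨2, by norm_num, le_rfl, not_le.1 hcon⟩
      have h4 := ball_univ ξ
      calc ∫⁻ s in Metric.closedBall ξ (2 ^ j * t), g s ∂hm ≤ ∫⁻ s in Metric.closedBall ξ (2 : ℝ), g s ∂hm := by
            rw [h4]
            exact lintegral_mono_set (Set.subset_univ _)
        _ ≤ ENNReal.ofReal (l * 2) := h3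
        _ ≤ _ := ENNReal.ofReal_le_ofReal (by nlinarith)
  calc ∫⁻ s, ENNReal.ofReal (t / (t ^ 2 + ‖ξ - s‖ ^ 2)) * g s ∂hm
      ≤ ∫⁻ s, ∑' j : ℕ, ENNReal.ofReal (4 * (1 / 4 : ℝ) ^ j / t) *
        (Metric.closedBall ξ (2 ^ j * t)).indicator g s ∂hm := lintegral_mono h1
    _ = ∑' j : ℕ, ∫⁻ s, ENNReal.ofReal (4 * (1 / 4 : ℝ) ^ j / t) *
        (Metric.closedBall ξ (2 ^ j * t)).indicator g s ∂hm := by
        apply lintegral_tsum
        intro j
        exact (hg.indicator Metric.isClosed_closedBall.measurableSet).const_mul _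
    _ = ∑' j : ℕ, ENNReal.ofReal (4 * (1 / 4 : ℝ) ^ j / t) *
        ∫⁻ s in Metric.closedBall ξ (2 ^ j * t), g s ∂hm := by
        refine tsum_congr fun j => ?_
        rw [lintegral_const_mul' _ _ ENNReal.ofReal_ne_top,
          lintegral_indicator Metric.isClosed_closedBall.measurableSet]
    _ ≤ ∑' j : ℕ, ENNReal.ofReal (4 * (1 / 4 : ℝ) ^ j / t) * ENNReal.ofReal (l * (2 ^ j * t)) := by
        refine ENNReal.tsum_le_tsum fun j => ?_
        gcongr
        exact h2 j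
    _ = ∑' j : ℕ, ENNReal.ofReal (4 * l * (1 / 2 : ℝ) ^ j) := by
        refine tsum_congr fun j => ?_
        rw [← ENNReal.ofReal_mul (by positivity)]
        congr 1
        have : (1 / 4 : ℝ) ^ j * 2 ^ j = (1 / 2) ^ j := by
          rw [← mul_pow]
          norm_num
        rw [← this]
        field_simp
    _ = ENNReal.ofReal (∑' j : ℕ, 4 * l * (1 / 2 : ℝ) ^ j) := by
        rw [ENNReal.ofReal_tsum_of_nonneg (fun j => by positivity)]
        exact (summable_geometric_of_lt_one (by norm_num) (by norm_num)).mul_left _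
    _ = ENNReal.ofReal (8 * l) := by
        congr 1
        rw [tsum_mul_left, tsum_geometric_of_lt_one (by norm_num) (by norm_num)]
        ring

end

end Vale.Agent.P097.H289
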