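import Vale.Agent.P097.H289.Disc4

/-!
# P097, Bishop discs, part 5: the vertical and horizontal difference quotients

The Poisson kernel identity, and the exceptional set for the difference quotients of the
holomorphic extension.
-/

open MeasureTheory Filter Topology
open scoped ENNReal ComplexConjugate NNReal

namespace Vale.Agent.P097.H289

noncomputable section

/-- every point of the circle has a small representative -/
theorem exists_rep (x : Ci) : ∃ y : ℝ, (y : Ci) = x ∧ |y| = ‖x‖ ∧ |y| ≤ 2 := by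
  obtain ⟨z, rfl⟩ := QuotientAddGroup.mk_surjective x
  have h1 := AddCircle.norm_eq (4 : ℝ) (x := z)
  have h2 := AddCircle.norm_le_half_period (4 : ℝ) (x := (z : Ci)) (by norm_num)
  refine ⟨z - round ((4 : ℝ)⁻¹ * z) * 4, ?_, h1.symm, ?_⟩
  · rw [AddCircle.coe_sub]
    have : (((round ((4 : ℝ)⁻¹ * z) : ℝ) * 4 : ℝ) : Ci) = 0 := by
      rw [AddCircle.coe_eq_zero_iff]
      exact ⟨round ((4 : ℝ)⁻¹ * z), by simp⟩
    rw [this, sub_zero]
  · rw [← h1]
    refine h2.trans ?_
    norm_num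

/-- the constant in the kernel bound -/
def kap1 : ℝ := min (1 / 4) (Real.exp (-(Real.pi / 2)))

theorem kap1_pos : 0 < kap1 := lt_min (by norm_num) (Real.exp_pos _)

/-- bound of the Poisson kernel -/
theorem kernel_bound {t : ℝ} (ht : 0 < t) (ht1 : t ≤ 1) (x : Ci) :
    ‖(1 - (Real.exp (-(Real.pi * t / 2)) : ℂ) * fourier 1 x)⁻¹ +
      conj ((Real.exp (-(Real.pi * t / 2)) : ℂ) * fourier 1 x) *
      (1 - conj ((Real.exp (-(Real.pi * t / 2)) : ℂ) * fourier 1 x))⁻¹‖ ≤
      Real.pi / kap1 * (t / (t ^ 2 + ‖x‖ ^ 2)) := by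
  obtain ⟨y, rfl, hy, hy2⟩ := exists_rep x
  set q : ℝ := Real.exp (-(Real.pi * t / 2)) with hq
  have hpi := Real.pi_pos
  have hq0 : 0 < q := Real.exp_pos _
  have hx0 : 0 < Real.pi * t / 2 := by positivity
  have hq1 : q < 1 := by
    have := Real.exp_lt_exp.2 (show -(Real.pi * t / 2) < 0 by linarith)
    rwa [Real.exp_zero] at this
  set z : ℂ := (q : ℂ) * fourier 1 (y : Ci) with hz
  have hf : (fourier 1 (y : Ci) : ℂ) = Complex.exp (((Real.pi * y / 2 : ℝ) : ℂ) * Complex.I) := by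
    rw [fourier_coe_apply]
    congr 1
    push_cast
    ring
  have hzn : ‖z‖ = q := by
    rw [hz, norm_mul, hf, Complex.norm_exp_ofReal_mul_I, mul_one, Complex.norm_real,
      Real.norm_of_nonneg hq0.le]
  have h1z : (1 - z) ≠ 0 := by
    intro h
    have : z = 1 := (sub_eq_zero.1 h).symm
    rw [this, norm_one] at hzn
    linarith
  have h1cz : (1 - conj z) ≠ 0 := by
    intro h
    apply h1z
    have := congrArg conj h
    simpa using this
  have hsum : (1 - z)⁻¹ + conj z * (1 - conj z)⁻¹ = (((1 - q ^ 2) / Complex.normSq (1 - z) : ℝ) : ℂ) := by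
    have e1 : (Complex.normSq (1 - z) : ℂ) = (1 - z) * (1 - conj z) := by
      rw [← Complex.mul_conj]
      simp
    have e2 : ((q : ℂ)) ^ 2 = z * conj z := by
      rw [Complex.mul_conj, Complex.normSq_eq_norm_sq, hzn]
      push_cast
      ring
    push_cast
    rw [e1, e2]
    field_simp
    ring
  rw [hsum, Complex.norm_real]
  have hns : Complex.normSq (1 - z) = (1 - q) ^ 2 + 2 * q * (1 - Real.cos (Real.pi * y / 2)) := by
    rw [hz, hf, Complex.exp_mul_I, ← Complex.ofReal_cos, ← Complex.ofReal_sin, Complex.normSq_apply]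
    have e1 : (1 - (q : ℂ) * (((Real.cos (Real.pi * y / 2) : ℝ) : ℂ) +
        ((Real.sin (Real.pi * y / 2) : ℝ) : ℂ) * Complex.I)).re = 1 - q * Real.cos (Real.pi * y / 2) := by
      simp only [Complex.sub_re, Complex.one_re, Complex.add_re,
        Complex.ofReal_re, Complex.mul_re, Complex.I_re, Complex.I_im, Complex.ofReal_im]
      ring
    have e2 : (1 - (q : ℂ) * (((Real.cos (Real.pi * y / 2) : ℝ) : ℂ) +
        ((Real.sin (Real.pi * y / 2) : ℝ) : ℂ) * Complex.I)).im = - (q * Real.sin (Real.pi * y / 2)) := by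
      simp only [Complex.sub_im, Complex.one_im, Complex.add_im,
        Complex.ofReal_re, Complex.mul_im, Complex.I_re, Complex.I_im, Complex.ofReal_im]
      ring
    rw [e1, e2]
    have := Real.sin_sq_add_cos_sq (Real.pi * y / 2)
    linear_combination (q ^ 2) * this
  have hcos : Real.cos (Real.pi * y / 2) ≤ 1 - y ^ 2 / 2 := by
    have h3 := Real.cos_le_one_sub_mul_cos_sq (x := Real.pi * y / 2) (by
      rw [abs_div, abs_mul, abs_of_pos hpi, abs_two]
      nlinarith)
    refine h3.trans (le_of_eq ?_)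
    field_simp
  have hq2 : t / 2 ≤ 1 - q := by
    have h4 : q * (1 + Real.pi * t / 2) ≤ 1 := by
      have h5 := Real.add_one_le_exp (Real.pi * t / 2)
      have h6 : q * Real.exp (Real.pi * t / 2) = 1 := by
        rw [hq, ← Real.exp_add]
        simp
      nlinarith
    have h7 : 3 < Real.pi := Real.pi_gt_three
    have h8 : 1 ≤ (1 - t / 2) * (1 + Real.pi * t / 2) := by nlinarith
    have h9 : q * (1 + Real.pi * t / 2) ≤ (1 - t / 2) * (1 + Real.pi * t / 2) := h4.trans h8
    have := le_of_mul_le_mul_right h9 (by positivity)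
    linarith
  have hq3 : 1 - q ^ 2 ≤ Real.pi * t := by
    have h5 := Real.add_one_le_exp (-(Real.pi * t / 2))
    have : 1 - q ≤ Real.pi * t / 2 := by
      rw [hq]
      linarith
    nlinarith
  have hq4 : kap1 ≤ q := by
    refine (min_le_right _ _).trans ?_
    rw [hq]
    apply Real.exp_le_exp.2
    nlinarith
  have hk := kap1_pos
  have hden : kap1 * (t ^ 2 + ‖(y : Ci)‖ ^ 2) ≤ Complex.normSq (1 - z) := by
    rw [hns, ← hy, sq_abs]
    have h10 : (t / 2) ^ 2 ≤ (1 - q) ^ 2 := by gcongr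
    have h11 : kap1 ≤ 1 / 4 := min_le_left _ _
    have h12 : kap1 * t ^ 2 ≤ 1 / 4 * t ^ 2 := by gcongr
    have h13 : kap1 * y ^ 2 ≤ q * y ^ 2 := by gcongr
    have h14 : q * y ^ 2 ≤ 2 * q * (1 - Real.cos (Real.pi * y / 2)) := by nlinarith
    nlinarith
  have hpos : 0 < t ^ 2 + ‖(y : Ci)‖ ^ 2 := by positivity
  have hq5 : 0 ≤ 1 - q ^ 2 := by nlinarith
  rw [Real.norm_of_nonneg (div_nonneg hq5 (Complex.normSq_nonneg _))]
  calc (1 - q ^ 2) / Complex.normSq (1 - z) ≤ (Real.pi * t) / (kap1 * (t ^ 2 + ‖(y : Ci)‖ ^ 2)) :=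
        div_le_div₀ (by positivity) hq3 (by positivity) hden
    _ = _ := by field_simp

/-- Poisson formula for a square integrable function without negative frequencies -/
theorem poisson_formula (f : EE) (hf : ∀ n : ℤ, n < 0 → fourierCoeff (f : Ci → ℂ) n = 0)
    {t : ℝ} (ht : 0 < t) (ξ : Ci) :
    ∑' n : ℕ, ((Real.exp (-(Real.pi * t / 2)) : ℂ)) ^ n * fourierCoeff (f : Ci → ℂ) (n : ℤ) *
      fourier (n : ℤ) ξ =
    ∫ s, ((1 - (Real.exp (-(Real.pi * t / 2)) : ℂ) * fourier 1 (ξ - s))⁻¹ +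
      conj ((Real.exp (-(Real.pi * t / 2)) : ℂ) * fourier 1 (ξ - s)) *
      (1 - conj ((Real.exp (-(Real.pi * t / 2)) : ℂ) * fourier 1 (ξ - s)))⁻¹) *
      (f : Ci → ℂ) s ∂hm := by
  set q : ℝ := Real.exp (-(Real.pi * t / 2)) with hq
  have hpi := Real.pi_pos
  have hq0 : 0 < q := Real.exp_pos _
  have hq1 : q < 1 := by
    have h0 : 0 < Real.pi * t / 2 := by positivity
    have := Real.exp_lt_exp.2 (show -(Real.pi * t / 2) < 0 by linarith)
    rwa [Real.exp_zero] at this
  have hfn : ∀ n : ℤ, ∀ x : Ci, ‖(fourier n x : ℂ)‖ = 1 := by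
    intro n x
    rw [fourier_apply]
    exact Circle.norm_coe _
  have hpow : ∀ n : ℕ, ∀ x : Ci, (fourier 1 x : ℂ) ^ n = fourier (n : ℤ) x := by
    intro n x
    induction n with
    | zero => simp
    | succ n ih =>
      rw [pow_succ, ih]
      push_cast
      rw [fourier_add]
  have hsub : ∀ n : ℤ, ∀ s : Ci, (fourier n (ξ - s) : ℂ) = fourier n ξ * fourier (-n) s := by
    intro n s
    rw [fourier_apply, fourier_apply, fourier_apply, smul_sub, sub_eq_add_neg, AddCircle.toCircle_add,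
      ← neg_smul]
    push_cast
    rfl
  have hfi := integrable_EE f
  -- the integrals of the single terms
  have hint : ∀ n : ℤ, ∫ s, (fourier n (ξ - s) : ℂ) * (f : Ci → ℂ) s ∂hm =
      fourier n ξ * fourierCoeff (f : Ci → ℂ) n := by
    intro n
    unfold fourierCoeff
    rw [← integral_const_mul]
    congr 1
    ext s
    rw [hsub, smul_eq_mul]
    ring
  have hmeas : ∀ n : ℤ, Continuous (fun s : Ci => (fourier n (ξ - s) : ℂ)) := by
    intro n
    fun_prop
  have hI : ∀ (n : ℤ) (a : ℂ), Integrable (fun s => a * ((fourier n (ξ - s) : ℂ) * (f : Ci → ℂ) s)) hm := by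
    intro n a
    apply Integrable.const_mul
    apply hfi.bdd_mul (c := 1) (hmeas n).aestronglyMeasurable
    exact Eventually.of_forall fun s => (hfn n _).le
  have hnorm : ∀ (n : ℤ) (a : ℂ), ∫ s, ‖a * ((fourier n (ξ - s) : ℂ) * (f : Ci → ℂ) s)‖ ∂hm =
      ‖a‖ * ∫ s, ‖(f : Ci → ℂ) s‖ ∂hm := by
    intro n a
    rw [← integral_const_mul]
    congr 1
    ext s
    rw [norm_mul, norm_mul, hfn, one_mul]
  have hgeo : Summable (fun n : ℕ => q ^ n) := summable_geometric_of_lt_one hq0.le hq1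
  have hA := hasSum_integral_of_summable_integral_norm (μ := hm)
    (F := fun (n : ℕ) s => ((q : ℂ)) ^ n * ((fourier (n : ℤ) (ξ - s) : ℂ) * (f : Ci → ℂ) s))
    (fun n => hI _ _) (by
      simp only [hnorm]
      apply Summable.mul_right
      simpa [norm_pow, abs_of_pos hq0] using hgeo)
  have hB := hasSum_integral_of_summable_integral_norm (μ := hm)
    (F := fun (n : ℕ) s => ((q : ℂ)) ^ (n + 1) * ((fourier (-((n : ℤ) + 1)) (ξ - s) : ℂ) * (f : Ci → ℂ) s))
    (fun n => hI _ _) (by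
      simp only [hnorm]
      apply Summable.mul_right
      have : Summable (fun n : ℕ => q ^ (n + 1)) := (summable_nat_add_iff 1).2 hgeo
      simpa [norm_pow, abs_of_pos hq0] using this)
  have hzn : ∀ x : Ci, ‖(q : ℂ) * fourier 1 x‖ < 1 := by
    intro x
    rw [norm_mul, hfn, mul_one, Complex.norm_real, Real.norm_of_nonneg hq0.le]
    exact hq1
  have hcn : ∀ x : Ci, ‖conj ((q : ℂ) * fourier 1 x)‖ < 1 := by
    intro x
    rw [RCLike.norm_conj]
    exact hzn x
  have hBz : ∫ s, ∑' n : ℕ, ((q : ℂ)) ^ (n + 1) * ((fourier (-((n : ℤ) + 1)) (ξ - s) : ℂ) * (f : Ci → ℂ) s) ∂hm = 0 := by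
    rw [← hB.tsum_eq]
    have : ∀ n : ℕ, ∫ s, ((q : ℂ)) ^ (n + 1) * ((fourier (-((n : ℤ) + 1)) (ξ - s) : ℂ) * (f : Ci → ℂ) s) ∂hm = 0 := by
      intro n
      rw [integral_const_mul, hint, hf _ (by omega), mul_zero, mul_zero]
    simp only [this, tsum_zero]
  have hAz : ∑' n : ℕ, ((q : ℂ)) ^ n * fourierCoeff (f : Ci → ℂ) (n : ℤ) * fourier (n : ℤ) ξ =
      ∫ s, ∑' n : ℕ, ((q : ℂ)) ^ n * ((fourier (n : ℤ) (ξ - s) : ℂ) * (f : Ci → ℂ) s) ∂hm := by
    rw [← hA.tsum_eq]
    refine tsum_congr fun n => ?_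
    rw [integral_const_mul, hint]
    ring
  have e1 : ∀ s, ∑' n : ℕ, ((q : ℂ)) ^ n * ((fourier (n : ℤ) (ξ - s) : ℂ) * (f : Ci → ℂ) s) =
      (1 - (q : ℂ) * fourier 1 (ξ - s))⁻¹ * (f : Ci → ℂ) s := by
    intro s
    rw [← tsum_geometric_of_norm_lt_one (hzn (ξ - s)), ← tsum_mul_right]
    refine tsum_congr fun n => ?_
    rw [mul_pow, hpow]
    ring
  have e2 : ∀ s, ∑' n : ℕ, ((q : ℂ)) ^ (n + 1) * ((fourier (-((n : ℤ) + 1)) (ξ - s) : ℂ) * (f : Ci → ℂ) s) =
      conj ((q : ℂ) * fourier 1 (ξ - s)) * (1 - conj ((q : ℂ) * fourier 1 (ξ - s)))⁻¹ * (f : Ci → ℂ) s := by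
    intro s
    rw [← tsum_geometric_of_norm_lt_one (hcn (ξ - s)), ← tsum_mul_left, ← tsum_mul_right]
    refine tsum_congr fun n => ?_
    rw [← pow_succ', ← map_pow, mul_pow, hpow, map_mul, map_pow, Complex.conj_ofReal]
    push_cast
    rw [fourier_neg (n := ((n : ℤ) + 1))]
    ring
  have hi1 : Integrable (fun s => (1 - (q : ℂ) * fourier 1 (ξ - s))⁻¹ * (f : Ci → ℂ) s) hm := by
    apply hfi.bdd_mul (c := (1 - q)⁻¹)
    · apply Continuous.aestronglyMeasurable
      apply Continuous.inv₀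
      · exact continuous_const.sub (continuous_const.mul (hmeas 1))
      · intro s h
        have h2 := hzn (ξ - s)
        rw [← sub_eq_zero.1 h, norm_one] at h2
        exact lt_irrefl _ h2
    · refine Eventually.of_forall fun s => ?_
      rw [norm_inv]
      apply inv_anti₀ (by linarith)
      have h3 := norm_sub_norm_le (1 : ℂ) ((q : ℂ) * fourier 1 (ξ - s))
      rw [norm_mul, hfn, mul_one, Complex.norm_real, Real.norm_of_nonneg hq0.le, norm_one] at h3
      exact h3
  have hi2 : Integrable (fun s => conj ((q : ℂ) * fourier 1 (ξ - s)) *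
      (1 - conj ((q : ℂ) * fourier 1 (ξ - s)))⁻¹ * (f : Ci → ℂ) s) hm := by
    apply hfi.bdd_mul (c := q * (1 - q)⁻¹)
    · apply Continuous.aestronglyMeasurable
      have hc : Continuous (fun s : Ci => conj ((q : ℂ) * fourier 1 (ξ - s))) :=
        Complex.continuous_conj.comp (continuous_const.mul (hmeas 1))
      apply hc.mul
      apply Continuous.inv₀
      · exact continuous_const.sub hc
      · intro s h
        have h2 := hcn (ξ - s)
        rw [← sub_eq_zero.1 h, norm_one] at h2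
        exact lt_irrefl _ h2
    · refine Eventually.of_forall fun s => ?_
      rw [norm_mul, norm_inv]
      have h4 : ‖conj ((q : ℂ) * fourier 1 (ξ - s))‖ = q := by
        rw [RCLike.norm_conj, norm_mul, hfn, mul_one, Complex.norm_real, Real.norm_of_nonneg hq0.le]
      rw [h4]
      have h3 := norm_sub_norm_le (1 : ℂ) (conj ((q : ℂ) * fourier 1 (ξ - s)))
      rw [h4, norm_one] at h3
      have h5 : ‖1 - conj ((q : ℂ) * fourier 1 (ξ - s))‖⁻¹ ≤ (1 - q)⁻¹ :=
        inv_anti₀ (by linarith) h3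
      exact mul_le_mul_of_nonneg_left h5 hq0.le
  rw [hAz]
  have e3 : ∫ s, (((1 - (q : ℂ) * fourier 1 (ξ - s))⁻¹ +
      conj ((q : ℂ) * fourier 1 (ξ - s)) * (1 - conj ((q : ℂ) * fourier 1 (ξ - s)))⁻¹) *
      (f : Ci → ℂ) s) ∂hm = ∫ s, ((1 - (q : ℂ) * fourier 1 (ξ - s))⁻¹ * (f : Ci → ℂ) s) ∂hm +
      ∫ s, (conj ((q : ℂ) * fourier 1 (ξ - s)) * (1 - conj ((q : ℂ) * fourier 1 (ξ - s)))⁻¹ *
      (f : Ci → ℂ) s) ∂hm := by
    rw [← integral_add hi1 hi2]
    congr 1
    ext s
    ring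
  rw [e3]
  simp only [e1, e2] at hBz ⊢
  rw [hBz, add_zero]

end

end Vale.Agent.P097.H289
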