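import Vale.Agent.P097.H289.Disc5

/-!
# P097, Bishop discs, part 6: the exceptional set of one disc

For coefficients with `∑ n² |a n|² ≤ B²` the vertical and horizontal difference quotients of
`Hf a` at `ξ` are small outside a set of measure `≤ C B² / ε²`.
-/

open MeasureTheory Filter Topology
open scoped ENNReal ComplexConjugate NNReal

namespace Vale.Agent.P097.H289

noncomputable section

/-- coefficients of the derivative -/
def dco (a : ℕ → ℂ) (m : ℕ) : ℂ := Real.pi * Complex.I * m / 2 * a m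

theorem norm_dco (a : ℕ → ℂ) (m : ℕ) : ‖dco a m‖ = Real.pi / 2 * (m * ‖a m‖) := by
  unfold dco
  rw [norm_mul, norm_div, norm_mul, norm_mul]
  simp [abs_of_pos Real.pi_pos]
  ring

theorem dco_sq {a : ℕ → ℂ} {B : ℝ} (h : Sq a B) (N : ℕ) :
    ∑ n ∈ Finset.range N, ‖dco a n‖ ^ 2 ≤ (Real.pi * B / 2) ^ 2 := by
  have h1 : ∀ n : ℕ, ‖dco a n‖ ^ 2 = (Real.pi / 2) ^ 2 * ((n : ℝ) ^ 2 * ‖a n‖ ^ 2) := by
    intro n
    rw [norm_dco]
    ring
  simp only [h1, ← Finset.mul_sum]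
  calc (Real.pi / 2) ^ 2 * ∑ n ∈ Finset.range N, (n : ℝ) ^ 2 * ‖a n‖ ^ 2 ≤ (Real.pi / 2) ^ 2 * B ^ 2 := by
        gcongr
        exact h N
    _ = _ := by ring

/-- two sided coefficients -/
def c2 (a : ℕ → ℂ) (n : ℤ) : ℂ := if 0 ≤ n then dco a n.toNat else 0

theorem c2_nat (a : ℕ → ℂ) (n : ℕ) : c2 a (n : ℤ) = dco a n := by
  unfold c2
  rw [if_pos (by omega)]
  simp

theorem c2_neg (a : ℕ → ℂ) {n : ℤ} (hn : n < 0) : c2 a n = 0 := by
  unfold c2
  rw [if_neg (by omega)]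

theorem c2_out (a : ℕ → ℂ) {n : ℤ} (hn : n ∉ Set.range ((↑) : ℕ → ℤ)) : c2 a n = 0 := by
  apply c2_neg
  by_contra h2
  exact hn ⟨n.toNat, by simp; omega⟩

theorem summable_dco {a : ℕ → ℂ} {B : ℝ} (h : Sq a B) : Summable (fun n => ‖dco a n‖ ^ 2) :=
  summable_of_sum_range_le (fun n => by positivity) (dco_sq h)

theorem hasSum_c2 {a : ℕ → ℂ} {B : ℝ} (h : Sq a B) :
    HasSum (fun n : ℤ => ‖c2 a n‖ ^ 2) (∑' n, ‖dco a n‖ ^ 2) := by
  refine (Function.Injective.hasSum_iff (g := ((↑) : ℕ → ℤ)) Nat.cast_injective ?_).1 ?_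
  · intro n hn
    rw [c2_out a hn]
    simp
  · have : ((fun n : ℤ => ‖c2 a n‖ ^ 2) ∘ ((↑) : ℕ → ℤ)) = fun n => ‖dco a n‖ ^ 2 := by
      ext n
      simp only [Function.comp_apply, c2_nat]
    rw [this]
    exact (summable_dco h).hasSum

theorem exists_L2 {a : ℕ → ℂ} {B : ℝ} (h : Sq a B) :
    ∃ f : EE, (∀ n : ℤ, fourierCoeff (f : Ci → ℂ) n = c2 a n) ∧
      ∫⁻ s, ‖(f : Ci → ℂ) s‖ₑ ^ 2 ∂hm ≤ ENNReal.ofReal ((Real.pi * B / 2) ^ 2) := by
  have hmem : Memℓp (fun n : ℤ => c2 a n) 2 := by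
    apply memℓp_gen
    simpa using (hasSum_c2 h).summable
  set f : EE := (fourierBasis (T := (4 : ℝ))).repr.symm ⟨fun n : ℤ => c2 a n, hmem⟩ with hf
  have hc : ∀ n : ℤ, fourierCoeff (f : Ci → ℂ) n = c2 a n := by
    intro n
    rw [← fourierBasis_repr, hf, LinearIsometryEquiv.apply_symm_apply]
  refine ⟨f, hc, ?_⟩
  have h1 := tsum_sq_fourierCoeff (T := (4 : ℝ)) f
  simp only [hc] at h1
  rw [(hasSum_c2 h).tsum_eq] at h1
  have h2 : ∑' n, ‖dco a n‖ ^ 2 ≤ (Real.pi * B / 2) ^ 2 :=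
    Real.tsum_le_of_sum_range_le (fun n => by positivity) (dco_sq h)
  have h3 : Integrable (fun s => ‖(f : Ci → ℂ) s‖ ^ 2) hm := by
    have := (Lp.memLp f).norm.integrable_sq
    exact this
  have h4 := ofReal_integral_eq_lintegral_ofReal h3 (Eventually.of_forall fun s => by positivity)
  have h5 : ∀ s, ‖(f : Ci → ℂ) s‖ₑ ^ 2 = ENNReal.ofReal (‖(f : Ci → ℂ) s‖ ^ 2) := by
    intro s
    rw [ENNReal.ofReal_pow (norm_nonneg _), ofReal_norm]
  simp only [h5]
  rw [← h4, ← h1]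
  exact ENNReal.ofReal_le_ofReal h2

/-- the constant in the derivative bound -/
def C0 : ℝ := Real.pi / kap1 * 8

theorem C0_pos : 0 < C0 := by
  unfold C0
  have := kap1_pos
  have := Real.pi_pos
  positivity

theorem deriv_le {a : ℕ → ℂ} {f : EE} (hf : ∀ n : ℤ, fourierCoeff (f : Ci → ℂ) n = c2 a n)
    {l : ℝ} (hl : 0 < l) {x : ℝ} (hx : (x : Ci) ∉ Big (fun s => ‖(f : Ci → ℂ) s‖ₑ) l)
    {t : ℝ} (ht : 0 < t) (ht1 : t ≤ 1) :
    ‖Hf (dco a) ((x : ℂ) + t * Complex.I)‖ ≤ C0 * l := by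
  have h1 : Hf (dco a) ((x : ℂ) + t * Complex.I) =
      ∑' n : ℕ, ((Real.exp (-(Real.pi * t / 2)) : ℂ)) ^ n * fourierCoeff (f : Ci → ℂ) (n : ℤ) *
      fourier (n : ℤ) (x : Ci) := by
    unfold Hf trm
    refine tsum_congr fun n => ?_
    have e0 : Complex.exp (Real.pi * Complex.I * n * ((x : ℂ) + t * Complex.I) / 2) =
        Complex.exp (n * ((-(Real.pi * t / 2) : ℝ) : ℂ)) *
        Complex.exp (2 * Real.pi * Complex.I * ((n : ℤ) : ℂ) * x / (4 : ℝ)) := by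
      rw [← Complex.exp_add]
      congr 1
      push_cast
      linear_combination (Real.pi * n * t / 2 : ℂ) * Complex.I_sq
    rw [e0, hf, c2_nat, fourier_coe_apply, Complex.ofReal_exp, ← Complex.exp_nat_mul]
    ring
  rw [h1, poisson_formula f (fun n hn => by rw [hf, c2_neg a hn]) ht (x : Ci)]
  have hm1 : AEMeasurable (fun s => ‖(f : Ci → ℂ) s‖ₑ) hm :=
    (Lp.aestronglyMeasurable f).enorm
  have h2 := poisson_le hm1 hl hx ht
  have h3 : ‖∫ s, ((1 - (Real.exp (-(Real.pi * t / 2)) : ℂ) * fourier 1 ((x : Ci) - s))⁻¹ +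
      conj ((Real.exp (-(Real.pi * t / 2)) : ℂ) * fourier 1 ((x : Ci) - s)) *
      (1 - conj ((Real.exp (-(Real.pi * t / 2)) : ℂ) * fourier 1 ((x : Ci) - s)))⁻¹) *
      (f : Ci → ℂ) s ∂hm‖ₑ ≤ ENNReal.ofReal (C0 * l) := by
    refine (enorm_integral_le_lintegral_enorm _).trans ?_
    calc ∫⁻ s, ‖((1 - (Real.exp (-(Real.pi * t / 2)) : ℂ) * fourier 1 ((x : Ci) - s))⁻¹ +
      conj ((Real.exp (-(Real.pi * t / 2)) : ℂ) * fourier 1 ((x : Ci) - s)) *
      (1 - conj ((Real.exp (-(Real.pi * t / 2)) : ℂ) * fourier 1 ((x : Ci) - s)))⁻¹) *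
      (f : Ci → ℂ) s‖ₑ ∂hm ≤ ∫⁻ s, ENNReal.ofReal (Real.pi / kap1) *
        (ENNReal.ofReal (t / (t ^ 2 + ‖(x : Ci) - s‖ ^ 2)) * ‖(f : Ci → ℂ) s‖ₑ) ∂hm := by
          refine lintegral_mono fun s => ?_
          rw [enorm_mul, ← mul_assoc]
          gcongr
          rw [← ENNReal.ofReal_mul (by have := kap1_pos; have := Real.pi_pos; positivity),
            ← ofReal_norm]
          exact ENNReal.ofReal_le_ofReal (kernel_bound ht ht1 _)
      _ = ENNReal.ofReal (Real.pi / kap1) *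
        ∫⁻ s, (ENNReal.ofReal (t / (t ^ 2 + ‖(x : Ci) - s‖ ^ 2)) * ‖(f : Ci → ℂ) s‖ₑ) ∂hm := by
          rw [lintegral_const_mul' _ _ ENNReal.ofReal_ne_top]
      _ ≤ ENNReal.ofReal (Real.pi / kap1) * ENNReal.ofReal (8 * l) := by gcongr
      _ = ENNReal.ofReal (C0 * l) := by
          rw [← ENNReal.ofReal_mul (by have := kap1_pos; have := Real.pi_pos; positivity)]
          congr 1
          unfold C0
          ring
  rw [← ofReal_norm] at h3
  exact (ENNReal.ofReal_le_ofReal_iff (by have := C0_pos; positivity)).1 h3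

/-- vertical difference quotient -/
theorem vert_le {a : ℕ → ℂ} {B : ℝ} (hB : 0 ≤ B) (h : Sq a B) {f : EE}
    (hf : ∀ n : ℤ, fourierCoeff (f : Ci → ℂ) n = c2 a n)
    {l : ℝ} (hl : 0 < l) {x : ℝ} (hx : (x : Ci) ∉ Big (fun s => ‖(f : Ci → ℂ) s‖ₑ) l)
    {r : ℝ} (hr : 0 < r) (hr1 : r ≤ 1) :
    ‖Hf a ((x : ℂ) + r * Complex.I) - Hf a x‖ ≤ C0 * l * r := by
  have hC := C0_pos
  have h1 : ∀ δ : ℝ, 0 < δ → δ ≤ r →
      ‖Hf a ((x : ℂ) + r * Complex.I) - Hf a ((x : ℂ) + δ * Complex.I)‖ ≤ C0 * l * r := by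
    intro δ hδ hδr
    have h2 : ∀ s ∈ Set.Icc δ r, HasDerivWithinAt (fun s : ℝ => Hf a ((x : ℂ) + s * Complex.I))
        (Hf (dco a) ((x : ℂ) + s * Complex.I) * Complex.I) (Set.Icc δ r) s := by
      intro s hs
      have hs0 : 0 < s := hδ.trans_le hs.1
      have e1 : HasDerivAt (Hf a) (Hf (dco a) ((x : ℂ) + s * Complex.I)) ((x : ℂ) + s * Complex.I) :=
        Hf_hasDerivAt hB h (by simpa using hs0)
      have e2 : HasDerivAt (fun s : ℝ => ((x : ℂ) + s * Complex.I)) Complex.I s := by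
        have := ((Complex.ofRealCLM.hasDerivAt (x := s)).mul_const Complex.I).const_add (x : ℂ)
        simpa using this
      exact (e1.comp s e2).hasDerivWithinAt
    have h3 := (convex_Icc δ r).norm_image_sub_le_of_norm_hasDerivWithin_le (C := C0 * l) h2
      (fun s hs => by
        rw [norm_mul, Complex.norm_I, mul_one]
        exact deriv_le hf hl hx (hδ.trans_le hs.1) (hs.2.trans hr1))
      (Set.left_mem_Icc.2 hδr) (Set.right_mem_Icc.2 hδr)
    refine h3.trans ?_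
    rw [Real.norm_of_nonneg (by linarith)]
    have : 0 < C0 * l := by positivity
    nlinarith
  have h4 : Tendsto (fun δ : ℝ => Hf a ((x : ℂ) + δ * Complex.I)) (𝓝[>] 0) (𝓝 (Hf a x)) := by
    have h5 := (Hf_continuousOn' hB h) (x : ℂ) (by simp)
    have h6 : Tendsto (fun δ : ℝ => ((x : ℂ) + δ * Complex.I)) (𝓝[>] 0) (𝓝[{ζ : ℂ | 0 ≤ ζ.im}] (x : ℂ)) := by
      apply tendsto_nhdsWithin_iff.2
      constructor
      · have : Continuous (fun δ : ℝ => ((x : ℂ) + δ * Complex.I)) := by fun_prop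
        have h7 := (this.tendsto 0).mono_left (nhdsWithin_le_nhds (s := Set.Ioi 0))
        simpa using h7
      · filter_upwards [self_mem_nhdsWithin] with δ hδ
        have : (0 : ℝ) < δ := hδ
        simpa using this.le
    exact h5.tendsto.comp h6
  have h8 : Tendsto (fun δ : ℝ => ‖Hf a ((x : ℂ) + r * Complex.I) - Hf a ((x : ℂ) + δ * Complex.I)‖)
      (𝓝[>] 0) (𝓝 ‖Hf a ((x : ℂ) + r * Complex.I) - Hf a x‖) := (h4.const_sub _).norm
  refine le_of_tendsto h8 ?_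
  filter_upwards [Ioo_mem_nhdsGT hr] with δ hδ
  exact h1 δ hδ.1 hδ.2.le

theorem fourier_real_diff (n : ℕ) (x y : ℝ) :
    ∫ s in x..y, (Real.pi * Complex.I * n / 2 : ℂ) * (fourier (n : ℤ) (s : Ci) : ℂ) =
      fourier (n : ℤ) (y : Ci) - fourier (n : ℤ) (x : Ci) := by
  have h1 : ∀ s : ℝ, HasDerivAt (fun s : ℝ => (fourier (n : ℤ) (s : Ci) : ℂ))
      ((Real.pi * Complex.I * n / 2 : ℂ) * (fourier (n : ℤ) (s : Ci) : ℂ)) s := by
    intro s
    have := hasDerivAt_fourier (4 : ℝ) (n : ℤ) s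
    refine this.congr_deriv ?_
    push_cast
    ring
  rw [intervalIntegral.integral_eq_sub_of_hasDerivAt (fun s _ => h1 s)]
  apply Continuous.intervalIntegrable
  have : Continuous (fun s : ℝ => (fourier (n : ℤ) (s : Ci) : ℂ)) :=
    (fourier (n : ℤ) : C(Ci, ℂ)).continuous.comp (AddCircle.continuous_mk' 4)
  exact continuous_const.mul this

theorem mem_ball_iff {m ρ s : ℝ} (hs : |s - m| ≤ 2) :
    (s : Ci) ∈ Metric.closedBall (m : Ci) ρ ↔ |s - m| ≤ ρ := by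
  rw [Metric.mem_closedBall, dist_eq_norm, ← AddCircle.coe_sub,
    (AddCircle.norm_coe_eq_abs_iff (4 : ℝ) (by norm_num)).2 (by rw [abs_of_pos (by norm_num : (0:ℝ) < 4)]; linarith)]

/-- integral over a ball of the circle -/
theorem integral_ball {F : Ci → ℂ} {m ρ : ℝ} (hρ : 0 ≤ ρ) (hρ2 : ρ < 2) :
    ∫ s in Metric.closedBall (m : Ci) ρ, F s ∂hm = (4 : ℝ)⁻¹ • ∫ s in (m - ρ)..(m + ρ), F (s : Ci) := by
  rw [← integral_indicator Metric.isClosed_closedBall.measurableSet, AddCircle.integral_haarAddCircle]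
  congr 1
  rw [← AddCircle.integral_preimage (4 : ℝ) (m - 2)]
  have h1 : ∀ s ∈ Set.Ioc (m - 2) (m - 2 + 4),
      (Metric.closedBall (m : Ci) ρ).indicator F (s : Ci) =
      (Set.Icc (m - ρ) (m + ρ)).indicator (fun s : ℝ => F (s : Ci)) s := by
    intro s hs
    have h2 : |s - m| ≤ 2 := by
      rw [abs_le]
      constructor <;> linarith [hs.1, hs.2]
    by_cases h3 : |s - m| ≤ ρ
    · rw [Set.indicator_of_mem ((mem_ball_iff h2).2 h3), Set.indicator_of_mem]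
      rw [abs_le] at h3
      exact ⟨by linarith [h3.1], by linarith [h3.2]⟩
    · rw [Set.indicator_of_notMem (fun h => h3 ((mem_ball_iff h2).1 h)), Set.indicator_of_notMem]
      intro h4
      apply h3
      rw [abs_le]
      exact ⟨by linarith [h4.1], by linarith [h4.2]⟩
  rw [setIntegral_congr_fun measurableSet_Ioc h1, setIntegral_indicator measurableSet_Icc,
    intervalIntegral.integral_of_le (by linarith), ← integral_Icc_eq_integral_Ioc]
  congr 2
  ext s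
  simp only [Set.mem_inter_iff, Set.mem_Ioc, Set.mem_Icc]
  constructor
  · rintro ⟨_, h⟩
    exact h
  · rintro ⟨h, h'⟩
    exact ⟨⟨by linarith, by linarith⟩, h, h'⟩

/-- horizontal difference quotient -/
theorem horiz_le {a : ℕ → ℂ} {B : ℝ} (hB : 0 ≤ B) (h : Sq a B) {f : EE}
    (hf : ∀ n : ℤ, fourierCoeff (f : Ci → ℂ) n = c2 a n)
    {l : ℝ} (hl : 0 < l) {x : ℝ} (hx : (x : Ci) ∉ Big (fun s => ‖(f : Ci → ℂ) s‖ₑ) l)
    {y : ℝ} (hy : |y - x| ≤ 2) :
    ‖Hf a y - Hf a x‖ ≤ 4 * l * |y - x| := by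
  rcases eq_or_ne y x with rfl | hne
  · simp
  have hρ0 : 0 < |y - x| := abs_pos.2 (sub_ne_zero.2 hne)
  set m : ℝ := (x + y) / 2 with hmd
  set ρ : ℝ := |y - x| / 2 with hρ
  have hS : MeasurableSet (Metric.closedBall (m : Ci) ρ) := Metric.isClosed_closedBall.measurableSet
  have hfin : hm (Metric.closedBall (m : Ci) ρ) ≠ ∞ := measure_ne_top _ _
  set Λ : EE →L[ℂ] ℂ := innerSL ℂ (indicatorConstLp 2 hS hfin (1 : ℂ)) with hΛ
  have hΛa : ∀ g : EE, Λ g = ∫ s in Metric.closedBall (m : Ci) ρ, (g : Ci → ℂ) s ∂hm := by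
    intro g
    rw [hΛ, innerSL_apply_apply]
    exact L2.inner_indicatorConstLp_one hS hfin g
  have h1 := Λ.hasSum (hasSum_fourier_series_L2 (T := (4 : ℝ)) f)
  -- the value of `Λ` on a monomial
  obtain ⟨σ, hσ, hσ2⟩ : ∃ σ : ℝ, |σ| = 1 ∧ ∀ G : ℝ → ℂ, ∫ s in (m - ρ)..(m + ρ), G s =
      (σ : ℂ) * ∫ s in x..y, G s := by
    rcases lt_or_gt_of_ne hne with h2 | h2
    · refine ⟨-1, by simp, fun G => ?_⟩
      have e1 : m - ρ = y := by rw [hmd, hρ, abs_of_neg (by linarith)]; ring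
      have e2 : m + ρ = x := by rw [hmd, hρ, abs_of_neg (by linarith)]; ring
      rw [e1, e2, intervalIntegral.integral_symm]
      push_cast
      ring
    · refine ⟨1, by simp, fun G => ?_⟩
      have e1 : m - ρ = x := by rw [hmd, hρ, abs_of_pos (by linarith)]; ring
      have e2 : m + ρ = y := by rw [hmd, hρ, abs_of_pos (by linarith)]; ring
      rw [e1, e2]
      push_cast
      ring
  have h2 : ∀ n : ℕ, Λ (fourierCoeff (f : Ci → ℂ) (n : ℤ) • (fourierLp 2 (n : ℤ) : EE)) =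
      (σ / 4 : ℂ) * (trm a n y - trm a n x) := by
    intro n
    rw [map_smul, hΛa, hf, c2_nat]
    have e1 : ∫ s in Metric.closedBall (m : Ci) ρ, ((fourierLp 2 (n : ℤ) : EE) : Ci → ℂ) s ∂hm =
        ∫ s in Metric.closedBall (m : Ci) ρ, (fourier (n : ℤ) s : ℂ) ∂hm :=
      integral_congr_ae (ae_restrict_of_ae (coeFn_fourierLp (T := (4 : ℝ)) 2 (n : ℤ)))
    rw [e1, integral_ball (by positivity) (by rw [hρ]; linarith), hσ2]
    have e2 : trm a n y - trm a n x = a n * (fourier (n : ℤ) (y : Ci) - fourier (n : ℤ) (x : Ci)) := by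
      unfold trm
      rw [fourier_coe_apply, fourier_coe_apply, mul_sub]
      congr 3
      · push_cast; ring
      · push_cast; ring
    rw [e2, ← fourier_real_diff, intervalIntegral.integral_const_mul]
    unfold dco
    rw [smul_eq_mul, Complex.real_smul]
    push_cast
    ring
  have h3 : HasSum (fun n : ℕ => (σ / 4 : ℂ) * (trm a n y - trm a n x)) (Λ f) := by
    have e3 := (Function.Injective.hasSum_iff (g := ((↑) : ℕ → ℤ)) (f := fun n : ℤ =>
      Λ (fourierCoeff (f : Ci → ℂ) n • (fourierLp 2 n : EE))) (a := Λ f) Nat.cast_injective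
      (fun n hn => by rw [hf, c2_out a hn, zero_smul, map_zero])).2 h1
    refine e3.congr_fun ?_
    intro n
    exact (h2 n).symm
  have hy0 : (0 : ℝ) ≤ (y : ℂ).im := by simp
  have hx0 : (0 : ℝ) ≤ (x : ℂ).im := by simp
  have h4 : HasSum (fun n : ℕ => (σ / 4 : ℂ) * (trm a n y - trm a n x)) ((σ / 4 : ℂ) * (Hf a y - Hf a x)) :=
    (((summable_trm hB h hy0).hasSum).sub ((summable_trm hB h hx0).hasSum)).mul_left _
  have h5 := h4.unique h3
  have h6 : ‖(σ / 4 : ℂ) * (Hf a y - Hf a x)‖ = 1 / 4 * ‖Hf a y - Hf a x‖ := by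
    rw [norm_mul, norm_div, Complex.norm_real, Real.norm_eq_abs, hσ]
    simp
  have h7 : ‖Λ f‖ₑ ≤ ENNReal.ofReal (l * |y - x|) := by
    rw [hΛa]
    refine (enorm_integral_le_lintegral_enorm _).trans ?_
    have hsub : Metric.closedBall (m : Ci) ρ ⊆ Metric.closedBall (x : Ci) |y - x| := by
      apply Metric.closedBall_subset_closedBall'
      have : dist (m : Ci) (x : Ci) ≤ |y - x| / 2 := by
        rw [dist_eq_norm, ← AddCircle.coe_sub]
        have e4 := QuotientAddGroup.norm_mk_le_norm (S := AddSubgroup.zmultiples (4 : ℝ)) (m := m - x)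
        refine e4.trans (le_of_eq ?_)
        rw [Real.norm_eq_abs, hmd, show (x + y) / 2 - x = (y - x) / 2 by ring, abs_div, abs_two]
      rw [hρ]
      linarith
    refine (lintegral_mono_set hsub).trans ?_
    by_contra hcon
    exact hx ⟨|y - x|, hρ0, hy, not_le.1 hcon⟩
  rw [← ofReal_norm, ENNReal.ofReal_le_ofReal_iff (by positivity), ← h5, h6] at h7
  linarith

/-- the exceptional set: measure and content -/
theorem exceptional {a : ℕ → ℂ} {B : ℝ} (hB : 0 ≤ B) (h : Sq a B) {ε : ℝ} (hε : 0 < ε) :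
    ∃ S : Set Ci, hm S ≤ ENNReal.ofReal ((5 * (Real.pi * (C0 + 4) / 2) ^ 2) * (B / ε) ^ 2) ∧
      ∀ x : ℝ, (x : Ci) ∉ S → (∀ r : ℝ, 0 < r → r ≤ 1 →
        ‖Hf a ((x : ℂ) + r * Complex.I) - Hf a x‖ ≤ ε * r) ∧
        ∀ y : ℝ, |y - x| ≤ 2 → ‖Hf a y - Hf a x‖ ≤ ε * |y - x| := by
  obtain ⟨f, hf, hf2⟩ := exists_L2 h
  have hC := C0_pos
  set l : ℝ := ε / (C0 + 4) with hl
  have hl0 : 0 < l := by positivity
  refine ⟨Big (fun s => ‖(f : Ci → ℂ) s‖ₑ) l, ?_, fun x hx => ⟨fun r hr hr1 => ?_, fun y hy => ?_⟩⟩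
  · have h1 := weak_two (fun s => ‖(f : Ci → ℂ) s‖ₑ) hl0
    have h2 : ENNReal.ofReal (l ^ 2) * hm (Big (fun s => ‖(f : Ci → ℂ) s‖ₑ) l) ≤
        ENNReal.ofReal (l ^ 2) * ENNReal.ofReal ((5 * (Real.pi * (C0 + 4) / 2) ^ 2) * (B / ε) ^ 2) := by
      refine h1.trans ?_
      calc ENNReal.ofReal 5 * ∫⁻ s, ‖(f : Ci → ℂ) s‖ₑ ^ 2 ∂hm ≤
          ENNReal.ofReal 5 * ENNReal.ofReal ((Real.pi * B / 2) ^ 2) := by gcongr
        _ = ENNReal.ofReal (l ^ 2) * ENNReal.ofReal ((5 * (Real.pi * (C0 + 4) / 2) ^ 2) * (B / ε) ^ 2) := by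
          rw [← ENNReal.ofReal_mul (by norm_num), ← ENNReal.ofReal_mul (by positivity)]
          congr 1
          rw [hl]
          field_simp
    exact (ENNReal.mul_le_mul_iff_right (by simp; positivity) ENNReal.ofReal_ne_top).1 h2
  · refine (vert_le hB h hf hl0 hx hr hr1).trans ?_
    have : C0 * l ≤ ε := by
      rw [hl, mul_div_assoc', div_le_iff₀ (by positivity)]
      nlinarith
    nlinarith
  · refine (horiz_le hB h hf hl0 hx hy).trans ?_
    have : 4 * l ≤ ε := by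
      rw [hl, mul_div_assoc', div_le_iff₀ (by positivity)]
      nlinarith
    nlinarith [abs_nonneg (y - x)]

end

end Vale.Agent.P097.H289
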