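import Vale.Agent.P097.H289.Disc6

/-!
# P097, Bishop discs, part 7: the family and its exceptional set
-/

open MeasureTheory Filter Topology
open scoped ENNReal ComplexConjugate NNReal

namespace Vale.Agent.P097.H289

noncomputable section

/-- positivity inside from positivity on the boundary -/
theorem re_nonneg {a : ℕ → ℂ} {B : ℝ} (hB : 0 ≤ B) (h : Sq a B)
    (hx : ∀ x : ℝ, 0 ≤ (Hf a x).re) {ζ : ℂ} (hζ : 0 ≤ ζ.im) : 0 ≤ (Hf a ζ).re := by
  set g : ℂ → ℂ := fun z => Complex.exp (-Hf a (Complex.I * z)) with hg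
  have him : ∀ z : ℂ, (Complex.I * z).im = z.re := fun z => by simp
  have hcl : closure {z : ℂ | 0 < z.re} = {z : ℂ | 0 ≤ z.re} := Complex.closure_setOfPred_lt_re 0
  have hbd : ∀ z : ℂ, 0 ≤ z.re → ‖g z‖ ≤ Real.exp (‖a 0‖ + B * √2) := by
    intro z hz
    simp only [hg]
    rw [Complex.norm_exp]
    apply Real.exp_le_exp.2
    have h1 := norm_Hf_le hB h (ζ := Complex.I * z) (by rw [him]; exact hz)
    have h2 := Complex.abs_re_le_norm (-Hf a (Complex.I * z))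
    rw [norm_neg] at h2
    exact (le_abs_self _).trans (h2.trans h1)
  have hd : DiffContOnCl ℂ g {z | 0 < z.re} := by
    constructor
    · intro z hz
      have h1 : HasDerivAt (Hf a) (Hf (fun m => Real.pi * Complex.I * m / 2 * a m) (Complex.I * z))
          (Complex.I * z) := Hf_hasDerivAt hB h (by rw [him]; exact hz)
      have h2 : HasDerivAt (fun z : ℂ => Complex.I * z) Complex.I z := by
        simpa using (hasDerivAt_id z).const_mul Complex.I
      exact ((h1.comp z h2).neg.cexp).differentiableAt.differentiableWithinAt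
    · rw [hcl]
      have h1 := Hf_continuousOn' hB h
      have h2 : ContinuousOn (fun z : ℂ => Hf a (Complex.I * z)) {z : ℂ | 0 ≤ z.re} := by
        have h3 : Continuous (fun z : ℂ => Complex.I * z) := by fun_prop
        exact h1.comp h3.continuousOn (fun z hz => by
          show 0 ≤ (Complex.I * z).im
          rw [him]; exact hz)
      exact (h2.neg).cexp
  have hO : g =O[Bornology.cobounded ℂ ⊓ 𝓟 {z | 0 < z.re}]
      fun z => Real.exp ((0 : ℝ) * ‖z‖ ^ (1 : ℝ)) := by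
    apply Asymptotics.IsBigO.of_bound (Real.exp (‖a 0‖ + B * √2))
    have : ∀ᶠ z : ℂ in Bornology.cobounded ℂ ⊓ 𝓟 {z : ℂ | 0 < z.re}, z ∈ {z : ℂ | 0 < z.re} :=
      mem_inf_of_right (mem_principal_self _)
    filter_upwards [this] with z hz
    rw [zero_mul, Real.exp_zero, norm_one, mul_one]
    exact hbd z (le_of_lt hz)
  have hre : IsBoundedUnder (· ≤ ·) atTop fun x : ℝ => ‖g x‖ := by
    refine ⟨Real.exp (‖a 0‖ + B * √2), ?_⟩
    rw [eventually_map]
    filter_upwards [eventually_ge_atTop 0] with x hx0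
    exact hbd x (by simpa using hx0)
  have himb : ∀ x : ℝ, ‖g (x * Complex.I)‖ ≤ 1 := by
    intro x
    simp only [hg]
    rw [Complex.norm_exp, Real.exp_le_one_iff]
    have h1 : Complex.I * (x * Complex.I) = ((-x : ℝ) : ℂ) := by
      push_cast
      linear_combination (x : ℂ) * Complex.I_sq
    rw [h1, Complex.neg_re]
    linarith [hx (-x)]
  have hfin := PhragmenLindelof.right_half_plane_of_bounded_on_real hd ⟨1, by norm_num, 0, hO⟩ hre
    himb (z := -Complex.I * ζ) (by simpa using hζ)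
  simp only [hg] at hfin
  have h2 : Complex.I * (-Complex.I * ζ) = ζ := by linear_combination (-ζ) * Complex.I_sq
  rw [h2, Complex.norm_exp, Real.exp_le_one_iff, Complex.neg_re] at hfin
  linarith

theorem lint_sq (f : EE) : ∫⁻ s, ‖(f : Ci → ℂ) s‖ₑ ^ 2 ∂hm = ENNReal.ofReal (‖f‖ ^ 2) := by
  have h1 := eLpNorm_eq_lintegral_rpow_enorm_toReal (f := (f : Ci → ℂ)) (μ := hm) (p := 2)
    (by norm_num) (by norm_num)
  have h2 : ‖f‖ₑ = eLpNorm (f : Ci → ℂ) 2 hm := Lp.enorm_def f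
  rw [ENNReal.ofReal_pow (norm_nonneg _), ofReal_norm, h2, h1, ← ENNReal.rpow_natCast,
    ← ENNReal.rpow_mul]
  simp

theorem co_sub_le (b b' : FF) (n : ℕ) : ‖co b n - co b' n‖ ≤ 2 * ‖b - b'‖ := by
  have h1 : ∀ m : ℤ, ‖fourierCoeff (cx b : Ci → ℂ) m - fourierCoeff (cx b' : Ci → ℂ) m‖ ≤ ‖b - b'‖ := by
    intro m
    have h2 : fourierCoeff (cx b : Ci → ℂ) m - fourierCoeff (cx b' : Ci → ℂ) m =
        fourierCoeff (cx (b - b') : Ci → ℂ) m := by
      rw [cx_sub, ← inner_fourier, ← inner_fourier, ← inner_fourier, inner_sub_right]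
    rw [h2, ← norm_cx (b - b')]
    exact norm_coeff_le _ _
  unfold co
  rw [coeff_hd, coeff_hd]
  split_ifs with h2 h3
  · have := h1 0
    have := norm_nonneg (b - b')
    linarith
  · rw [← mul_sub, norm_mul]
    have h4 : ‖(2 : ℂ)‖ = 2 := by simp
    rw [h4]
    have := h1 n
    linarith
  · simp

theorem tj_sub (b b' : FF) : ∀ᵐ x ∂hm, |tj b x - tj b' x| ≤ ‖(((2 : ℂ) • Pp (cx (b - b')) : EE) : Ci → ℂ) x‖ := by
  have h0 : ((2 : ℂ) • Pp (cx (b - b')) : EE) = (2 : ℂ) • Pp (cx b) - (2 : ℂ) • Pp (cx b') := by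
    rw [cx_sub, map_sub, smul_sub]
  rw [h0]
  filter_upwards [Lp.coeFn_sub ((2 : ℂ) • Pp (cx b)) ((2 : ℂ) • Pp (cx b'))] with x h1
  rw [h1, Pi.sub_apply]
  unfold tj
  rw [← Complex.sub_im]
  exact Complex.abs_im_le_norm _

theorem lint_interval (F : Ci → ℝ≥0∞) (t : ℝ) :
    ∫⁻ x in Set.Ioc t (t + 4), F (x : Ci) = ENNReal.ofReal 4 * ∫⁻ s, F s ∂hm := by
  rw [AddCircle.lintegral_preimage (4 : ℝ) t F, AddCircle.volume_eq_smul_haarAddCircle,
    lintegral_smul_measure, smul_eq_mul]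

/-- the family of solutions -/
structure Fam (D : ℝ → Ci → ℝ) (c : ℝ) (A : ℝ → ℕ → ℂ) : Prop where
  sq : ∀ p, Sq (A p) (3 * c)
  a0 : ∀ p, ‖A p 0‖ ≤ c
  cont : ∀ n, Continuous fun p => A p n
  eq : ∀ p (x : ℝ), (Hf (A p) x).re = c * D (p - (Hf (A p) x).im) (x : Ci)
  l2 : ∀ (p q t : ℝ), ∫⁻ x in Set.Ioc t (t + 4),
    ENNReal.ofReal (((Hf (A p) x).im - (Hf (A q) x).im) ^ 2) ≤ ENNReal.ofReal ((8 * c) ^ 2 * (p - q) ^ 2)

theorem exists_fam {D : ℝ → Ci → ℝ} (h : Dat D) {c : ℝ} (hc : 0 < c) (hc1 : c ≤ 1 / 4) :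
    ∃ A, Fam D c A := by
  choose b hb using fun p => exists_fix h hc hc1 p
  have hlip : ∀ p q, ‖b p - b q‖ ≤ 2 * c * |p - q| := by
    intro p q
    have := fix_sub h h hc.le hc1 p q 0 (fun x ξ => by simp) (b p) (b q) (hb p) (hb q)
    simpa using this
  refine ⟨fun p => co (b p), fun p => co_sq h hc.le hc1 p (b p) (hb p), fun p => ?_, fun n => ?_,
    fun p x => bishop_eq h hc.le hc1 p (b p) (hb p) x, fun p q t => ?_⟩
  · refine (co_zero_le (b p)).trans ?_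
    have h1 := Lp.norm_le_of_ae_bound (f := b p) (μ := hm) hc.le (by
      have h2 := coe_Ph h c p (b p)
      rw [hb p] at h2
      filter_upwards [h2] with ξ h3
      rw [h3, Real.norm_of_nonneg (mul_nonneg hc.le (h.nonneg _ _))]
      have := h.le_one (p - tj (b p) ξ) ξ
      nlinarith)
    simpa [measureUnivNNReal] using h1
  · rw [Metric.continuous_iff]
    intro p ε hε
    refine ⟨ε / (4 * c), by positivity, fun q hq => ?_⟩
    rw [dist_eq_norm]
    rw [Real.dist_eq, lt_div_iff₀ (by positivity)] at hq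
    have h1 := co_sub_le (b q) (b p) n
    have h2 := hlip q p
    linarith
  · obtain ⟨G, hG1, hG2⟩ := exists_bdry (b := b p) (B := 3 * c) (by positivity)
      (co_sq h hc.le hc1 p (b p) (hb p))
    obtain ⟨G', hG1', hG2'⟩ := exists_bdry (b := b q) (B := 3 * c) (by positivity)
      (co_sq h hc.le hc1 q (b q) (hb q))
    have h1 : ∀ x : ℝ, ENNReal.ofReal (((Hf (co (b p)) x).im - (Hf (co (b q)) x).im) ^ 2) =
        (fun s : Ci => ENNReal.ofReal (((G s).im - (G' s).im) ^ 2)) (x : Ci) := by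
      intro x
      simp only [hG1, hG1']
    simp only [h1]
    rw [lint_interval (fun s : Ci => ENNReal.ofReal (((G s).im - (G' s).im) ^ 2)) t]
    have h2 : ∫⁻ s, ENNReal.ofReal (((G s).im - (G' s).im) ^ 2) ∂hm ≤
        ∫⁻ s, ‖(((2 : ℂ) • Pp (cx (b p - b q)) : EE) : Ci → ℂ) s‖ₑ ^ 2 ∂hm := by
      apply lintegral_mono_ae
      filter_upwards [hG2, hG2', im_hd (b p), im_hd (b q), tj_sub (b p) (b q)] with s e1 e2 e3 e4 e5
      rw [e1, e2, e3, e4, ← ofReal_norm, ← ENNReal.ofReal_pow (norm_nonneg _)]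
      apply ENNReal.ofReal_le_ofReal
      rw [← sq_abs]
      gcongr
    have h3 : ‖((2 : ℂ) • Pp (cx (b p - b q)) : EE)‖ ≤ 4 * c * |p - q| := by
      rw [norm_smul]
      have e1 := norm_Pp_le (cx (b p - b q))
      rw [norm_cx] at e1
      have e2 : ‖(2 : ℂ)‖ = 2 := by simp
      rw [e2]
      have := hlip p q
      linarith
    rw [lint_sq] at h2
    calc ENNReal.ofReal 4 * ∫⁻ s, ENNReal.ofReal (((G s).im - (G' s).im) ^ 2) ∂hm
        ≤ ENNReal.ofReal 4 * ENNReal.ofReal (‖((2 : ℂ) • Pp (cx (b p - b q)) : EE)‖ ^ 2) := by gcongr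
      _ ≤ ENNReal.ofReal 4 * ENNReal.ofReal ((4 * c * |p - q|) ^ 2) := by gcongr
      _ = ENNReal.ofReal ((8 * c) ^ 2 * (p - q) ^ 2) := by
        rw [← ENNReal.ofReal_mul (by norm_num), ← sq_abs (p - q)]
        congr 1
        ring

/-- bad parameters -/
def Nb (A : ℝ → ℕ → ℂ) (ε : ℝ) : Set (ℝ × ℝ) :=
  {z | (∃ r : ℝ, 0 < r ∧ r < 1 ∧ ε * r < ‖Hf (A z.1) ((z.2 : ℂ) + r * Complex.I) - Hf (A z.1) (z.2 : ℂ)‖) ∨
    ∃ y : ℝ, |y - z.2| < 2 ∧ ε * |y - z.2| < ‖Hf (A z.1) (y : ℂ) - Hf (A z.1) (z.2 : ℂ)‖}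

theorem cont_at {D : ℝ → Ci → ℝ} {c : ℝ} {A : ℝ → ℕ → ℂ} (F : Fam D c A) (hc : 0 ≤ c)
    {X : Type*} [TopologicalSpace X] {p : X → ℝ} {ζ : X → ℂ} (hp : Continuous p) (hζ : Continuous ζ)
    (h0 : ∀ z, 0 ≤ (ζ z).im) : Continuous fun z => Hf (A (p z)) (ζ z) := by
  have h1 := Hf_continuousOn (by positivity : 0 ≤ 3 * c) F.sq F.cont
  have h2 : Continuous (fun z => ((p z, ζ z) : ℝ × ℂ)) := hp.prodMk hζ
  have h3 := h1.comp (f := fun z => ((p z, ζ z) : ℝ × ℂ)) (s := Set.univ) h2.continuousOn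
    (fun z _ => h0 z)
  exact continuousOn_univ.1 h3

theorem isOpen_Nb {D : ℝ → Ci → ℝ} {c : ℝ} {A : ℝ → ℕ → ℂ} (F : Fam D c A) (hc : 0 ≤ c) (ε : ℝ) :
    IsOpen (Nb A ε) := by
  have e1 : Nb A ε = (⋃ r : ℝ, ⋃ _ : 0 < r ∧ r < 1, {z : ℝ × ℝ | ε * r <
      ‖Hf (A z.1) ((z.2 : ℂ) + r * Complex.I) - Hf (A z.1) (z.2 : ℂ)‖}) ∪
      ⋃ y : ℝ, {z : ℝ × ℝ | |y - z.2| < 2 ∧ ε * |y - z.2| <
        ‖Hf (A z.1) (y : ℂ) - Hf (A z.1) (z.2 : ℂ)‖} := by
    ext z
    simp only [Nb, Set.mem_union, Set.mem_iUnion, Set.mem_ofPred_eq, exists_prop, and_assoc]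
  rw [e1]
  have c1 : Continuous (fun z : ℝ × ℝ => Hf (A z.1) (z.2 : ℂ)) :=
    cont_at F hc continuous_fst (by fun_prop) (fun z => by simp)
  apply IsOpen.union
  · refine isOpen_iUnion fun r => isOpen_iUnion fun hr => ?_
    apply isOpen_lt continuous_const
    have c2 : Continuous (fun z : ℝ × ℝ => Hf (A z.1) ((z.2 : ℂ) + r * Complex.I)) :=
      cont_at F hc continuous_fst (by fun_prop) (fun z => by simpa using hr.1.le)
    exact (c2.sub c1).norm
  · refine isOpen_iUnion fun y => ?_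
    have c2 : Continuous (fun z : ℝ × ℝ => Hf (A z.1) (y : ℂ)) :=
      cont_at F hc continuous_fst (by fun_prop) (fun z => by simp)
    have o1 : IsOpen {z : ℝ × ℝ | |y - z.2| < 2} := isOpen_lt (by fun_prop) continuous_const
    have o2 : IsOpen {z : ℝ × ℝ | ε * |y - z.2| < ‖Hf (A z.1) (y : ℂ) - Hf (A z.1) (z.2 : ℂ)‖} :=
      isOpen_lt (by fun_prop) ((c2.sub c1).norm)
    exact o1.inter o2

/-- absolute constant -/
def K0 : ℝ := 4 * ((5 * (Real.pi * (C0 + 4) / 2) ^ 2) * 9)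

theorem K0_pos : 0 < K0 := by
  unfold K0
  have := C0_pos
  have := Real.pi_pos
  positivity

theorem section_le {D : ℝ → Ci → ℝ} {c : ℝ} {A : ℝ → ℕ → ℂ} (F : Fam D c A) (hc : 0 ≤ c) {ε : ℝ}
    (hε : 0 < ε) (p t : ℝ) : volume {x : ℝ | x ∈ Set.Ioc t (t + 4) ∧ (p, x) ∈ Nb A ε} ≤
      ENNReal.ofReal (K0 * (c / ε) ^ 2) := by
  obtain ⟨S, hS1, hS2⟩ := exceptional (by positivity : 0 ≤ 3 * c) (F.sq p) hε
  set S' : Set Ci := toMeasurable hm S with hS'
  have h1 : {x : ℝ | x ∈ Set.Ioc t (t + 4) ∧ (p, x) ∈ Nb A ε} ⊆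
      {x : ℝ | x ∈ Set.Ioc t (t + 4) ∧ (x : Ci) ∈ S'} := by
    rintro x ⟨hx1, hx2⟩
    refine ⟨hx1, subset_toMeasurable hm S ?_⟩
    by_contra hx3
    obtain ⟨h4, h5⟩ := hS2 x hx3
    rcases hx2 with ⟨r, hr0, hr1, hr2⟩ | ⟨y, hy1, hy2⟩
    · exact absurd (h4 r hr0 hr1.le) (not_le.2 hr2)
    · exact absurd (h5 y hy1.le) (not_le.2 hy2)
  have h2 : volume {x : ℝ | x ∈ Set.Ioc t (t + 4) ∧ (x : Ci) ∈ S'} = ENNReal.ofReal 4 * hm S' := by
    have h3 := lint_interval (Set.indicator S' 1) t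
    rw [lintegral_indicator_one (measurableSet_toMeasurable hm S)] at h3
    rw [← h3]
    have h4 : ∀ x : ℝ, (Set.indicator S' (1 : Ci → ℝ≥0∞)) (x : Ci) =
        Set.indicator {x : ℝ | (x : Ci) ∈ S'} 1 x := by
      intro x
      by_cases h : (x : Ci) ∈ S'
      · rw [Set.indicator_of_mem h, Set.indicator_of_mem (by exact h)]
        rfl
      · rw [Set.indicator_of_notMem h, Set.indicator_of_notMem (by exact h)]
    have hmeas : MeasurableSet {x : ℝ | (x : Ci) ∈ S'} :=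
      (AddCircle.measurable_mk' (a := 4)) (measurableSet_toMeasurable hm S)
    simp only [h4]
    rw [lintegral_indicator_one hmeas, Measure.restrict_apply hmeas]
    congr 1
    ext x
    simp only [Set.mem_ofPred_eq, Set.mem_inter_iff]
    tauto
  refine (measure_mono h1).trans ?_
  rw [h2, hS', measure_toMeasurable]
  calc ENNReal.ofReal 4 * hm S ≤ ENNReal.ofReal 4 *
      ENNReal.ofReal ((5 * (Real.pi * (C0 + 4) / 2) ^ 2) * (3 * c / ε) ^ 2) := by gcongr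
    _ = ENNReal.ofReal (K0 * (c / ε) ^ 2) := by
      rw [← ENNReal.ofReal_mul (by norm_num)]
      congr 1
      unfold K0
      ring

theorem box_le {D : ℝ → Ci → ℝ} {c : ℝ} {A : ℝ → ℕ → ℂ} (F : Fam D c A) (hc : 0 ≤ c) {ε : ℝ}
    (hε : 0 < ε) (u v t : ℝ) :
    volume (Nb A ε ∩ (Set.Ioo u v ×ˢ Set.Ioc t (t + 4))) ≤
      ENNReal.ofReal (v - u) * ENNReal.ofReal (K0 * (c / ε) ^ 2) := by
  have hm1 : MeasurableSet (Nb A ε ∩ (Set.Ioo u v ×ˢ Set.Ioc t (t + 4))) :=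
    (isOpen_Nb F hc ε).measurableSet.inter (measurableSet_Ioo.prod measurableSet_Ioc)
  rw [Measure.volume_eq_prod, Measure.prod_apply hm1]
  have h1 : ∀ p : ℝ, volume (Prod.mk p ⁻¹' (Nb A ε ∩ (Set.Ioo u v ×ˢ Set.Ioc t (t + 4)))) ≤
      (Set.Ioo u v).indicator (fun _ => ENNReal.ofReal (K0 * (c / ε) ^ 2)) p := by
    intro p
    by_cases hp : p ∈ Set.Ioo u v
    · rw [Set.indicator_of_mem hp]
      refine le_trans (measure_mono ?_) (section_le F hc hε p t)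
      rintro x ⟨hx1, _, hx2⟩
      exact ⟨hx2, hx1⟩
    · rw [Set.indicator_of_notMem hp]
      have : Prod.mk p ⁻¹' (Nb A ε ∩ (Set.Ioo u v ×ˢ Set.Ioc t (t + 4))) = ∅ := by
        ext x
        simp only [Set.mem_preimage, Set.mem_inter_iff, Set.mem_prod, Set.mem_empty_iff_false,
          iff_false]
        rintro ⟨_, h, _⟩
        exact hp h
      rw [this, measure_empty]
  refine (lintegral_mono h1).trans ?_
  rw [lintegral_indicator measurableSet_Ioo, lintegral_const, Measure.restrict_apply_univ,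
    Real.volume_Ioo, mul_comm]

end

end Vale.Agent.P097.H289
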